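import Mathlib

/-! A linear bound for the winding area of closed walks forces geodesic triangles to be slim. -/

namespace Vale.Agent.P186

open SimpleGraph

variable {V : Type*} {X : SimpleGraph V}

/-- The sum modulo two of a function of the darts of a walk. -/
def par (χ : V → V → ZMod 2) {u v : V} (w : X.Walk u v) : ZMod 2 :=
  (w.darts.map fun e => χ e.fst e.snd).sum

/-- The indicator of crossing the level `τ` of `h` above the level `t` of `f`. -/
def chi (h f : V → ℕ) (τ t : ℕ) (a b : V) : ZMod 2 :=
  if t < f a ∧ t < f b then (if h a ≤ τ then 1 else 0) + (if h b ≤ τ then 1 else 0) else 0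

/-- Closed walks have winding area at most `C` times their length. -/
def AreaBound (X : SimpleGraph V) (C : ℕ) : Prop :=
  ∀ h f : V → ℕ, (∀ a b, X.Adj a b → h a ≤ h b + 1) → (∀ a b, X.Adj a b → f a ≤ f b + 1) →
    ∀ (v : V) (w : X.Walk v v) (Q : Finset (ℕ × ℕ)), (∀ a ∈ Q, par (chi h f a.1 a.2) w ≠ 0) →
      Q.card ≤ C * w.length

/-- Geodesic triangles of perimeter at most `n` are `δ`-slim. -/
def Tri (X : SimpleGraph V) (n δ : ℕ) : Prop :=
  ∀ (x y z : V) (p : X.Walk x y) (q : X.Walk y z) (r : X.Walk z x), p.length = X.dist x y →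
    q.length = X.dist y z → r.length = X.dist z x → p.length + q.length + r.length ≤ n →
    ∀ a ∈ p.support, ∃ b, (b ∈ q.support ∨ b ∈ r.support) ∧ X.dist a b ≤ δ

theorem par_nil (χ : V → V → ZMod 2) (u : V) : par χ (Walk.nil : X.Walk u u) = 0 := rfl

theorem par_cons (χ : V → V → ZMod 2) {u v w : V} (h : X.Adj u v) (p : X.Walk v w) :
    par χ (Walk.cons h p) = χ u v + par χ p := by
  simp [par]

theorem par_append (χ : V → V → ZMod 2) {u v w : V} (p : X.Walk u v) (q : X.Walk v w) :
    par χ (p.append q) = par χ p + par χ q := by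
  simp [par]

theorem par_eq_zero (χ : V → V → ZMod 2) {u v : V} (p : X.Walk u v)
    (h : ∀ a ∈ p.support, ∀ b ∈ p.support, χ a b = 0) : par χ p = 0 := by
  induction p with
  | nil => rfl
  | cons hadj p ih =>
    rw [par_cons, h _ (by simp) _ (by simp), ih (fun a ha b hb => h a (by simp [ha]) b
      (by simp [hb])), add_zero]

theorem par_geo (h f : V → ℕ) (τ t : ℕ) {u v : V} (p : X.Walk u v) (h0 : ℕ)
    (hh : ∀ j ≤ p.length, h (p.getVert j) = h0 + j) (h1 : h0 ≤ τ) (h2 : τ < h0 + p.length)
    (h3 : t < f (p.getVert (τ - h0))) (h4 : t < f (p.getVert (τ - h0 + 1))) :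
    par (chi h f τ t) p = 1 := by
  induction p generalizing h0 with
  | nil => simp at h2; omega
  | @cons a b c hadj p ih =>
    have ea : h a = h0 := by simpa using hh 0 (by omega)
    have eb : h b = h0 + 1 := by simpa using hh 1 (by simp)
    have hh' : ∀ j ≤ p.length, h (p.getVert j) = h0 + 1 + j := by
      intro j hj
      have := hh (j + 1) (by simp; omega)
      rw [Walk.getVert_cons_succ] at this
      omega
    rw [par_cons]
    rcases Nat.eq_or_lt_of_le h1 with rfl | hlt
    · rw [par_eq_zero]
      · simp only [Nat.sub_self, Walk.getVert_zero, zero_add, Walk.getVert_cons_succ] at h3 h4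
        simp [chi, h3, h4, ea, eb]
      · intro x hx y hy
        obtain ⟨i, rfl, hi⟩ := Walk.mem_support_iff_exists_getVert.1 hx
        obtain ⟨j, rfl, hj⟩ := Walk.mem_support_iff_exists_getVert.1 hy
        have e1 : ¬ h (p.getVert i) ≤ h0 := by rw [hh' i hi]; omega
        have e2 : ¬ h (p.getVert j) ≤ h0 := by rw [hh' j hj]; omega
        simp [chi, e1, e2]
    · have e : τ - h0 = τ - (h0 + 1) + 1 := by omega
      rw [e, Walk.getVert_cons_succ] at h3 h4
      rw [ih (h0 + 1) hh' hlt (by simp at h2; omega) h3 h4]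
      have e1 : h a ≤ τ := by omega
      have e2 : h b ≤ τ := by omega
      have : (1 : ZMod 2) + 1 = 0 := rfl
      simp [chi, e1, e2, this]

theorem exists_seg {u v : V} (q : X.Walk u v) {i j : ℕ} (hij : i ≤ j) (hj : j ≤ q.length) :
    ∃ w : X.Walk (q.getVert i) (q.getVert j), w.length = j - i ∧
      ∀ k ≤ j - i, w.getVert k = q.getVert (i + k) := by
  refine ⟨((q.drop i).take (j - i)).copy rfl (by rw [Walk.drop_getVert]; congr 1; omega), ?_, ?_⟩
  · simp only [Walk.length_copy, Walk.take_length, Walk.drop_length]; omega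
  · intro k hk
    simp only [Walk.getVert_copy, Walk.take_getVert, Walk.drop_getVert]
    congr 1; omega

theorem seg_support {u v : V} {q : X.Walk u v} {i j : ℕ} {w : X.Walk (q.getVert i) (q.getVert j)}
    (h1 : w.length = j - i) (h2 : ∀ k ≤ j - i, w.getVert k = q.getVert (i + k)) {z : V}
    (hz : z ∈ w.support) : z ∈ q.support := by
  obtain ⟨k, rfl, hk⟩ := Walk.mem_support_iff_exists_getVert.1 hz
  rw [h2 k (by omega)]
  exact Walk.getVert_mem_support _ _

theorem dist_getVert_le {u v : V} (q : X.Walk u v) {i j : ℕ} (hij : i ≤ j) (hj : j ≤ q.length) :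
    X.dist (q.getVert i) (q.getVert j) ≤ j - i := by
  obtain ⟨w, h, -⟩ := exists_seg q hij hj
  exact h ▸ dist_le w

theorem geo_dist (hc : X.Connected) {u v : V} {q : X.Walk u v} (hq : q.length = X.dist u v)
    {i j : ℕ} (hij : i ≤ j) (hj : j ≤ q.length) :
    X.dist (q.getVert i) (q.getVert j) = j - i := by
  have h1 := dist_getVert_le q hij hj
  have h2 := dist_getVert_le q (Nat.zero_le i) (hij.trans hj)
  have h3 := dist_getVert_le q hj le_rfl
  rw [Walk.getVert_zero] at h2
  rw [Walk.getVert_length] at h3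
  have h4 := hc.dist_triangle (u := u) (v := q.getVert i) (w := v)
  have h5 := hc.dist_triangle (u := q.getVert i) (v := q.getVert j) (w := v)
  omega

theorem dist_support_le {u v z : V} (q : X.Walk u v) (hz : z ∈ q.support) :
    X.dist u z ≤ q.length := by
  obtain ⟨k, rfl, hk⟩ := Walk.mem_support_iff_exists_getVert.1 hz
  have := dist_getVert_le q (Nat.zero_le k) hk
  rw [Walk.getVert_zero] at this
  omega

/-- There is a short walk from `u` to `v` that stays far from `x`. -/
def FW (X : SimpleGraph V) (x : V) (δ : ℕ) (u v : V) (n : ℕ) : Prop :=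
  ∃ w : X.Walk u v, w.length ≤ n ∧ ∀ z ∈ w.support, δ ≤ X.dist x z

theorem FW.append {x u v w : V} {δ n m : ℕ} (h1 : FW X x δ u v n) (h2 : FW X x δ v w m) :
    FW X x δ u w (n + m) := by
  obtain ⟨p, hp, hp'⟩ := h1
  obtain ⟨q, hq, hq'⟩ := h2
  refine ⟨p.append q, by simp; omega, fun z hz => ?_⟩
  rcases (Walk.mem_support_append_iff _ _).1 hz with h | h
  · exact hp' z h
  · exact hq' z h

theorem FW.symm {x u v : V} {δ n : ℕ} (h1 : FW X x δ u v n) : FW X x δ v u n := by
  obtain ⟨p, hp, hp'⟩ := h1
  exact ⟨p.reverse, by simpa using hp, fun z hz => hp' z (by simpa using hz)⟩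

theorem FW.mono {x u v : V} {δ n m : ℕ} (h1 : FW X x δ u v n) (h : n ≤ m) : FW X x δ u v m := by
  obtain ⟨p, hp, hp'⟩ := h1
  exact ⟨p, hp.trans h, hp'⟩

theorem FW.of_geo (hc : X.Connected) {x u v a b : V} {δ : ℕ} {q : X.Walk u v}
    (hq : q.length = X.dist u v) (hfar : ∀ z ∈ q.support, δ ≤ X.dist x z) (ha : a ∈ q.support)
    (hb : b ∈ q.support) : FW X x δ a b (X.dist a b) := by
  obtain ⟨i, rfl, hi⟩ := Walk.mem_support_iff_exists_getVert.1 ha
  obtain ⟨j, rfl, hj⟩ := Walk.mem_support_iff_exists_getVert.1 hb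
  rcases le_total i j with h | h
  · obtain ⟨w, h1, h2⟩ := exists_seg q h hj
    exact ⟨w, by rw [geo_dist hc hq h hj, h1], fun z hz => hfar z (seg_support h1 h2 hz)⟩
  · obtain ⟨w, h1, h2⟩ := exists_seg q h hi
    refine FW.symm ⟨w, ?_, fun z hz => hfar z (seg_support h1 h2 hz)⟩
    rw [dist_comm, geo_dist hc hq h hi, h1]

theorem FW.of_dist (hc : X.Connected) {x a b : V} {δ : ℕ} (h : δ + X.dist a b ≤ X.dist x a) :
    FW X x δ a b (X.dist a b) := by
  obtain ⟨w, hw⟩ := hc.exists_walk_length_eq_dist a b
  refine ⟨w, hw.le, fun z hz => ?_⟩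
  have h1 := dist_support_le w hz
  have h2 := hc.dist_triangle (u := x) (v := z) (w := a)
  rw [dist_comm (u := z)] at h2
  omega

theorem far_cross (hc : X.Connected) {n δ : ℕ} (hδ : 0 < δ) (hT : Tri X n δ) {x y z x0 u v : V}
    {p : X.Walk x y} {q : X.Walk y z} {r : X.Walk z x}
    (hq : q.length = X.dist y z) (hr : r.length = X.dist z x)
    (hn : p.length + q.length + r.length ≤ n) (hfq : ∀ b ∈ q.support, δ ≤ X.dist x0 b)
    (hfr : ∀ b ∈ r.support, δ ≤ X.dist x0 b) (hu : u ∈ q.support) (hv : v ∈ r.support)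
    (hu0 : X.dist x0 u ≤ 3 * δ) (hv0 : X.dist x0 v ≤ 3 * δ) : FW X x0 δ u v (24 * δ) := by
  have huv : X.dist u v ≤ 6 * δ := by
    have := hc.dist_triangle (u := u) (v := x0) (w := v)
    rw [dist_comm (u := u) (v := x0)] at this
    omega
  obtain ⟨j, rfl, hj⟩ := Walk.mem_support_iff_exists_getVert.1 hu
  obtain ⟨k, rfl, hk⟩ := Walk.mem_support_iff_exists_getVert.1 hv
  have duz : X.dist (q.getVert j) z = q.length - j := by
    have := geo_dist hc hq hj le_rfl
    rwa [Walk.getVert_length] at this
  have dzv : X.dist z (r.getVert k) = k := by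
    have := geo_dist hc hr (Nat.zero_le k) hk
    rwa [Walk.getVert_zero] at this
  by_cases hM : q.length - j ≤ 8 * δ
  · have h1 := FW.of_geo hc hq hfq hu q.end_mem_support
    have h2 := FW.of_geo hc hr hfr r.start_mem_support hv
    have h3 := hc.dist_triangle (u := z) (v := q.getVert j) (w := r.getVert k)
    rw [dist_comm (u := z) (v := q.getVert j)] at h3
    exact (h1.append h2).mono (by omega)
  · obtain ⟨s, hs⟩ := hc.exists_walk_length_eq_dist (r.getVert k) (q.getVert j)
    have hper : X.dist (r.getVert k) (q.getVert j) ≤ (r.length - k) + p.length + j := by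
      have h1 := hc.dist_triangle (u := r.getVert k) (v := x) (w := q.getVert j)
      have h2 := hc.dist_triangle (u := x) (v := y) (w := q.getVert j)
      have h3 := dist_getVert_le r hk le_rfl
      have h4 := dist_getVert_le q (Nat.zero_le j) hj
      have h5 := dist_le p
      rw [Walk.getVert_length] at h3
      rw [Walk.getVert_zero] at h4
      omega
    obtain ⟨b, hb, hab⟩ := hT _ _ _ (q.drop j) (r.take k) s (by rw [Walk.drop_length, duz])
      (by rw [Walk.take_length, dzv]; omega) hs
      (by rw [Walk.drop_length, Walk.take_length, hs]; omega)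
      (q.getVert (j + 8 * δ)) (by rw [← Walk.drop_getVert]; exact Walk.getVert_mem_support _ _)
    have d1 : X.dist (q.getVert j) (q.getVert (j + 8 * δ)) = 8 * δ := by
      rw [geo_dist hc hq (by omega) (by omega)]; omega
    rcases hb with hb | hb
    · have hb' : b ∈ r.support := by
        obtain ⟨i, rfl, -⟩ := Walk.mem_support_iff_exists_getVert.1 hb
        rw [Walk.take_getVert]
        exact Walk.getVert_mem_support _ _
      have h1 := FW.of_geo hc hq hfq hu (Walk.getVert_mem_support q (j + 8 * δ))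
      have t1 := hc.dist_triangle (u := q.getVert j) (v := x0) (w := q.getVert (j + 8 * δ))
      rw [dist_comm (u := q.getVert j) (v := x0)] at t1
      have h2 : FW X x0 δ (q.getVert (j + 8 * δ)) b _ := FW.of_dist hc (by omega)
      have h3 := FW.of_geo hc hr hfr hb' hv
      have t2 := hc.dist_triangle (u := b) (v := q.getVert (j + 8 * δ)) (w := r.getVert k)
      have t3 := hc.dist_triangle (u := q.getVert (j + 8 * δ)) (v := q.getVert j)
        (w := r.getVert k)
      rw [dist_comm (u := b) (v := q.getVert (j + 8 * δ))] at t2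
      rw [dist_comm (u := q.getVert (j + 8 * δ)) (v := q.getVert j)] at t3
      exact ((h1.append h2).append h3).mono (by omega)
    · exfalso
      have h1 := dist_support_le s.reverse (z := b) (by simpa using hb)
      rw [Walk.length_reverse, hs, dist_comm (u := r.getVert k)] at h1
      have t1 := hc.dist_triangle (u := q.getVert j) (v := b) (w := q.getVert (j + 8 * δ))
      rw [dist_comm (u := b)] at t1
      omega

theorem tri_bound (hc : X.Connected) {C : ℕ} (hA : AreaBound X C) {n δ : ℕ} (hT : Tri X n δ)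
    (hT' : ¬ Tri X n (δ - 1)) : δ ≤ 180 * C + 1 := by
  rcases Nat.eq_zero_or_pos δ with rfl | hδ
  · omega
  unfold Tri at hT'
  push Not at hT'
  obtain ⟨x, y, z, p, q, r, hp, hq, hr, hn, x0, hx0, hfar⟩ := hT'
  have hfq : ∀ b ∈ q.support, δ ≤ X.dist x0 b := fun b hb => by
    have := hfar b (Or.inl hb); omega
  have hfr : ∀ b ∈ r.support, δ ≤ X.dist x0 b := fun b hb => by
    have := hfar b (Or.inr hb); omega
  obtain ⟨i, rfl, hi⟩ := Walk.mem_support_iff_exists_getVert.1 hx0
  have hi1 : δ ≤ i := by
    have h1 := hfr x r.end_mem_support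
    have h2 := geo_dist hc hp (Nat.zero_le i) hi
    rw [Walk.getVert_zero, dist_comm] at h2
    omega
  have hi2 : i + δ ≤ p.length := by
    have h1 := hfq y q.start_mem_support
    have h2 := geo_dist hc hp hi le_rfl
    rw [Walk.getVert_length] at h2
    omega
  have conn : ∀ j ≤ p.length, (X.dist (p.getVert i) (p.getVert j) = 2 * δ ∨
      (X.dist (p.getVert i) (p.getVert j) ≤ 2 * δ ∧
        (p.getVert j ∈ q.support ∨ p.getVert j ∈ r.support))) →
      ∃ a', (a' ∈ q.support ∨ a' ∈ r.support) ∧ X.dist (p.getVert i) a' ≤ 3 * δ ∧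
        FW X (p.getVert i) δ (p.getVert j) a' δ := by
    rintro j - (h | ⟨h, h'⟩)
    · obtain ⟨b, hb, hab⟩ := hT _ _ _ p q r hp hq hr hn _ (Walk.getVert_mem_support p j)
      have t := hc.dist_triangle (u := p.getVert i) (v := p.getVert j) (w := b)
      exact ⟨b, hb, by omega, (FW.of_dist hc (by omega)).mono hab⟩
    · refine ⟨_, h', by omega, Walk.nil, by simp, fun z hz => ?_⟩
      rw [Walk.support_nil, List.mem_singleton] at hz
      rw [hz]
      exact h'.elim (hfq _) (hfr _)
  obtain ⟨a', ha', ha0, hFa⟩ := conn (i - 2 * δ) (by omega) (by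
    rw [dist_comm, geo_dist hc hp (by omega) hi]
    by_cases h : 2 * δ ≤ i
    · left; omega
    · right
      have : i - 2 * δ = 0 := by omega
      rw [this, Walk.getVert_zero]
      exact ⟨by omega, Or.inr r.end_mem_support⟩)
  obtain ⟨b', hb', hb0, hFb⟩ := conn (min p.length (i + 2 * δ)) (by omega) (by
    rw [geo_dist hc hp (by omega) (by omega)]
    by_cases h : i + 2 * δ ≤ p.length
    · left; omega
    · right
      have : min p.length (i + 2 * δ) = p.length := by omega
      rw [this, Walk.getVert_length]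
      exact ⟨by omega, Or.inl q.start_mem_support⟩)
  have hab : X.dist a' b' ≤ 6 * δ := by
    have := hc.dist_triangle (u := a') (v := p.getVert i) (w := b')
    rw [dist_comm (u := a') (v := p.getVert i)] at this
    omega
  have hF : FW X (p.getVert i) δ a' b' (24 * δ) := by
    rcases ha' with ha' | ha' <;> rcases hb' with hb' | hb'
    · exact (FW.of_geo hc hq hfq ha' hb').mono (by omega)
    · exact far_cross hc hδ hT hq hr hn hfq hfr ha' hb' ha0 hb0
    · exact (far_cross hc hδ hT hq hr hn hfq hfr hb' ha' hb0 ha0).symm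
    · exact (FW.of_geo hc hr hfr ha' hb').mono (by omega)
  obtain ⟨w, hw, hwf⟩ := ((hFa.append hF).append hFb.symm).symm
  obtain ⟨s, hs1, hs2⟩ := exists_seg p (i := i - 2 * δ) (j := min p.length (i + 2 * δ))
    (by omega) (by omega)
  have lip : ∀ o a b, X.Adj a b → X.dist o a ≤ X.dist o b + 1 := by
    intro o a b hab
    have := hc.dist_triangle (u := o) (v := b) (w := a)
    rw [dist_eq_one_iff_adj.2 hab.symm] at this
    exact this
  have key := hA (fun v => X.dist x v) (fun v => δ - X.dist (p.getVert i) v) (lip x)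
    (fun a b hab => by have := lip (p.getVert i) b a hab.symm; omega) _ (s.append w)
    (Finset.Ico i (i + δ / 2) ×ˢ Finset.range (δ / 2)) (by
      rintro ⟨τ, t⟩ ha
      simp only [Finset.mem_product, Finset.mem_Ico, Finset.mem_range] at ha
      rw [par_append, par_eq_zero _ w, par_geo _ _ τ t s (i - 2 * δ)]
      · simp
      · intro j hj
        rw [hs2 j (by omega)]
        have := geo_dist hc hp (Nat.zero_le (i - 2 * δ + j)) (by omega)
        rwa [Walk.getVert_zero] at this
      · omega
      · omega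
      · rw [hs2 _ (by omega), geo_dist hc hp (by omega) (by omega)]; omega
      · rw [hs2 _ (by omega), geo_dist hc hp (by omega) (by omega)]; omega
      · intro a ha b _
        have := hwf a ha
        have e : ¬ t < δ - X.dist (p.getVert i) a := by omega
        simp [chi, e])
  rw [Finset.card_product, Nat.card_Ico, Finset.card_range, Walk.length_append] at key
  have e1 : i + δ / 2 - i = δ / 2 := by omega
  rw [e1] at key
  have e2 : s.length + w.length ≤ 90 * (δ / 2) ∨ δ / 2 = 0 := by omega
  rcases e2 with e2 | e2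
  · by_contra hlt
    have h1 : 90 * C < δ / 2 := by omega
    have h2 := Nat.mul_le_mul_left C e2
    nlinarith
  · omega

theorem slim_of_area (hc : X.Connected) {C : ℕ} (hA : AreaBound X C) (n : ℕ) :
    Tri X n (180 * C + 1) := by
  classical
  have hex : ∃ δ, Tri X n δ := by
    refine ⟨n, fun x y z p q r _ _ _ hn a ha => ⟨x, Or.inr r.end_mem_support, ?_⟩⟩
    have := dist_support_le p ha
    rw [dist_comm]
    omega
  have hle : Nat.find hex ≤ 180 * C + 1 := by
    rcases Nat.eq_zero_or_pos (Nat.find hex) with h | h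
    · omega
    · exact tri_bound hc hA (Nat.find_spec hex) (Nat.find_min hex (by omega))
  intro x y z p q r hp hq hr hn a ha
  obtain ⟨b, hb, hab⟩ := Nat.find_spec hex x y z p q r hp hq hr hn a ha
  exact ⟨b, hb, hab.trans hle⟩

end Vale.Agent.P186
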