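import Vale.Agent.P186.Tree

/-! The word metric of a free group is a tree metric. -/

namespace Vale.Agent.P186

open FreeGroup

variable {S : Type*} [DecidableEq S]

/-- The word metric of the free group. -/
def fd (x y : FreeGroup S) : ℕ := FreeGroup.norm (x⁻¹ * y)

theorem norm_mk_red {L : List (S × Bool)} (h : IsReduced L) :
    FreeGroup.norm (mk L) = L.length := by
  unfold FreeGroup.norm
  rw [toWord_mk, h.reduce_eq]

theorem toWord_mk_red {L : List (S × Bool)} (h : IsReduced L) : (mk L).toWord = L := by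
  rw [toWord_mk, h.reduce_eq]

theorem red_invRev {L : List (S × Bool)} (h : IsReduced L) : IsReduced (invRev L) := by
  rw [isReduced_iff_reduce_eq, reduce_invRev, h.reduce_eq]

omit [DecidableEq S] in
theorem red_left {L M : List (S × Bool)} (h : IsReduced (L ++ M)) : IsReduced L :=
  List.IsChain.left_of_append h

omit [DecidableEq S] in
theorem red_right {L M : List (S × Bool)} (h : IsReduced (L ++ M)) : IsReduced M :=
  List.IsChain.right_of_append h

theorem split_red : ∀ (L₁ L₂ : List (S × Bool)), IsReduced L₁ → IsReduced L₂ →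
    ∃ M A B, L₁ = M ++ A ∧ L₂ = M ++ B ∧ IsReduced (invRev A ++ B)
  | [], L₂, _, h₂ => ⟨[], [], L₂, rfl, rfl, by simpa using h₂⟩
  | a :: L₁, [], h₁, _ => ⟨[], a :: L₁, [], rfl, rfl, by simpa using red_invRev h₁⟩
  | a :: L₁, b :: L₂, h₁, h₂ => by
    by_cases hab : a = b
    · subst hab
      obtain ⟨M, A, B, e1, e2, h⟩ := split_red L₁ L₂ (red_right (L := [a]) h₁)
        (red_right (L := [a]) h₂)
      exact ⟨a :: M, A, B, by simp [e1], by simp [e2], h⟩
    · refine ⟨[], a :: L₁, b :: L₂, rfl, rfl, ?_⟩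
      have h3 := red_invRev h₁
      rw [invRev_cons] at h3 ⊢
      refine IsReduced.append_overlap h3 ?_ (by simp [invRev])
      have : invRev [a] = [(a.1, !a.2)] := by simp [invRev]
      rw [this, List.singleton_append, isReduced_cons_cons]
      refine ⟨fun h => ?_, h₂⟩
      obtain ⟨a1, a2⟩ := a
      obtain ⟨b1, b2⟩ := b
      simp only at h ⊢
      subst h
      cases a2 <;> cases b2 <;> simp_all

theorem split_free (y z : FreeGroup S) : ∃ M A B, y.toWord = M ++ A ∧ z.toWord = M ++ B ∧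
    fd y z = A.length + B.length := by
  obtain ⟨M, A, B, e1, e2, h⟩ := split_red y.toWord z.toWord isReduced_toWord isReduced_toWord
  refine ⟨M, A, B, e1, e2, ?_⟩
  have : y⁻¹ * z = mk (invRev A ++ B) := by
    rw [← mk_toWord (x := y), ← mk_toWord (x := z), e1, e2, ← mul_mk, ← mul_mk, ← mul_mk,
      ← inv_mk]
    group
  unfold fd
  rw [this, norm_mk_red h]
  simp

theorem fd_one (x : FreeGroup S) : fd 1 x = x.toWord.length := by
  simp [fd, FreeGroup.norm]

theorem fd_mul (g x y : FreeGroup S) : fd (g * x) (g * y) = fd x y := by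
  unfold fd
  congr 1
  group

theorem fd_symm (x y : FreeGroup S) : fd x y = fd y x := by
  unfold fd
  rw [← norm_inv_eq]
  congr 1
  group

theorem fd_tri (x y z : FreeGroup S) : fd x z ≤ fd x y + fd y z := by
  unfold fd
  have : x⁻¹ * z = (x⁻¹ * y) * (y⁻¹ * z) := by group
  rw [this]
  exact norm_mul_le _ _

theorem btw_mul (g : FreeGroup S) {x y z : FreeGroup S} :
    Btw fd (g * x) (g * z) (g * y) ↔ Btw fd x z y := by
  unfold Btw
  simp only [fd_mul]

theorem fd_prefix {y : FreeGroup S} {M A : List (S × Bool)} (h : y.toWord = M ++ A) :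
    fd 1 (mk M) = M.length ∧ fd (mk M) y = A.length := by
  have hr : IsReduced (M ++ A) := h ▸ isReduced_toWord
  constructor
  · rw [fd_one, toWord_mk_red (red_left hr)]
  · have : (mk M)⁻¹ * y = mk A := by
      rw [← mk_toWord (x := y), h, ← mul_mk]; group
    unfold fd
    rw [this, norm_mk_red (red_right hr)]

theorem btw_one_iff {p y : FreeGroup S} : Btw fd 1 p y ↔ ∃ B, y.toWord = p.toWord ++ B := by
  constructor
  · intro h
    obtain ⟨M, A, B, e1, e2, e3⟩ := split_free p y
    unfold Btw at h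
    rw [fd_one, fd_one, e1, e2, e3] at h
    simp only [List.length_append] at h
    have : A = [] := List.length_eq_zero_iff.1 (by omega)
    subst this
    exact ⟨B, by rw [e2, e1]; simp⟩
  · rintro ⟨B, h⟩
    obtain ⟨e1, e2⟩ := fd_prefix h
    rw [mk_toWord] at e1 e2
    unfold Btw
    rw [e1, e2, fd_one, h]
    simp

theorem fd_tree : TreeMetric (fd (S := S)) := by
  have med1 : ∀ y z : FreeGroup S, ∃ m, Btw fd 1 m y ∧ Btw fd y m z ∧ Btw fd 1 m z := by
    intro y z
    obtain ⟨M, A, B, e1, e2, e3⟩ := split_free y z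
    obtain ⟨a1, a2⟩ := fd_prefix e1
    obtain ⟨-, b2⟩ := fd_prefix e2
    refine ⟨mk M, ?_, ?_, ?_⟩ <;> unfold Btw
    · rw [a1, a2, fd_one, e1]; simp
    · rw [fd_symm y, a2, b2, e3]
    · rw [a1, b2, fd_one, e2]; simp
  have thin1 : ∀ y z p : FreeGroup S, Btw fd 1 p y → Btw fd 1 p z ∨ Btw fd z p y := by
    intro y z p hp
    obtain ⟨m, h1, h2, h3⟩ := med1 y z
    obtain ⟨B, hB⟩ := btw_one_iff.1 hp
    obtain ⟨B', hB'⟩ := btw_one_iff.1 h1
    rcases List.append_eq_append_iff.1 (hB.symm.trans hB') with ⟨C, hC, -⟩ | ⟨C, hC, -⟩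
    · left
      have h4 : Btw fd 1 p m := btw_one_iff.2 ⟨C, hC⟩
      unfold Btw at *
      have := fd_tri p m z
      have := fd_tri 1 p z
      omega
    · right
      have h4 : Btw fd 1 m p := btw_one_iff.2 ⟨C, hC⟩
      unfold Btw at *
      have := fd_tri z m p
      have := fd_tri z p y
      have := fd_symm y z
      have := fd_symm m z
      have := fd_symm y m
      omega
  refine ⟨fun x => by simp [fd], fun x y h => ?_, fd_symm, fd_tri, fun x y z => ?_,
    fun x y z p h => ?_, fun x y i hi => ?_⟩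
  · unfold fd at h
    rw [FreeGroup.norm_eq_zero] at h
    exact (inv_mul_eq_one.1 h)
  · obtain ⟨m, h1, h2, h3⟩ := med1 (x⁻¹ * y) (x⁻¹ * z)
    refine ⟨x * m, ?_, ?_, ?_⟩
    · simpa using (btw_mul x).2 h1
    · simpa using (btw_mul x).2 h2
    · simpa using (btw_mul x).2 h3
  · have h1 : Btw fd 1 (x⁻¹ * p) (x⁻¹ * y) := by simpa using (btw_mul x⁻¹).2 h
    rcases thin1 _ (x⁻¹ * z) _ h1 with h2 | h2
    · left; simpa using (btw_mul x).2 h2
    · right; simpa using (btw_mul x).2 h2
  · have e : (x⁻¹ * y).toWord = (x⁻¹ * y).toWord.take i ++ (x⁻¹ * y).toWord.drop i := by simp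
    obtain ⟨a1, a2⟩ := fd_prefix e
    have hl : fd x y = (x⁻¹ * y).toWord.length := rfl
    have b1 : fd x (x * mk ((x⁻¹ * y).toWord.take i)) = i := by
      have := fd_mul x 1 (mk ((x⁻¹ * y).toWord.take i))
      rw [mul_one] at this
      rw [this, a1, List.length_take]; omega
    refine ⟨x * mk ((x⁻¹ * y).toWord.take i), b1, ?_⟩
    have := fd_mul x (mk ((x⁻¹ * y).toWord.take i)) (x⁻¹ * y)
    rw [mul_inv_cancel_left] at this
    unfold Btw
    rw [b1, this, a2, List.length_drop]; omega

end Vale.Agent.P186
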