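import Vale.Agent.P186.Config

/-! The factorisation of a diagonal matrix through a narrow one, over a group algebra. -/

namespace Vale.Agent.P186

namespace Config

variable {S K V : Type} [Fintype S] [DecidableEq S] [Fintype K] [Fintype V] (Ω : Config S K V)

theorem rows {R : Type} [AddCommGroup R] [Module (ZMod 2) R] (γ : V → R) :
    ∃ α : Fin Ω.u → R, ∀ t, ∑ j, Ω.μ j t • α j = ∑ c, ∑ x, if Ω.lab x c = t then γ x else 0 := by
  choose a ha using Ω.span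
  refine ⟨fun j => ∑ x, a x j • γ x, fun t => ?_⟩
  simp only [Finset.smul_sum, smul_smul]
  rw [Finset.sum_comm, Finset.sum_comm (γ := K)]
  refine Finset.sum_congr rfl fun x _ => ?_
  rw [← Finset.sum_smul]
  simp only [mul_comm (Ω.μ _ t)]
  rw [← ha, Finset.sum_smul]
  simp only [ite_smul, one_smul, zero_smul]

theorem identity {R : Type} [Ring R] [Module (ZMod 2) R] (γ : V → R) (s : S → R) (i : S)
    (h : ∀ x c, Ω.side x = false → (x = Ω.sp i ∧ c = Ω.c0) ∨ γ (Ω.mv x c) = γ x * s (Ω.lab x c)) :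
    ∃ α β : Fin Ω.u → R, ∀ t, ∑ j, Ω.μ j t • β j - (∑ j, Ω.μ j t • α j) * s t =
      if t = i then γ (Ω.mv (Ω.sp i) Ω.c0) - γ (Ω.sp i) * s i else 0 := by
  classical
  obtain ⟨α, hα⟩ := Ω.rows fun x => if Ω.side x = false then γ x else 0
  obtain ⟨β, hβ⟩ := Ω.rows fun x => if Ω.side x = true then γ x else 0
  refine ⟨α, β, fun t => ?_⟩
  rw [hα, hβ, Finset.sum_mul, ← Finset.sum_sub_distrib]
  have e : ∀ c, (∑ x, if Ω.lab x c = t then (if Ω.side x = true then γ x else 0) else 0) -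
      (∑ x, if Ω.lab x c = t then (if Ω.side x = false then γ x else 0) else 0) * s t =
      ∑ x, if Ω.lab x c = t ∧ Ω.side x = false then γ (Ω.mv x c) - γ x * s t else 0 := by
    intro c
    rw [← Equiv.sum_comp (Function.Involutive.toPerm (fun x => Ω.mv x c) (fun x => Ω.mv_mv x c)),
      Finset.sum_mul, ← Finset.sum_sub_distrib]
    refine Finset.sum_congr rfl fun x _ => ?_
    show (if Ω.lab (Ω.mv x c) c = t then (if Ω.side (Ω.mv x c) = true then γ (Ω.mv x c) else 0)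
      else 0) - _ = _
    rw [Ω.lab_mv, Ω.side_mv]
    by_cases h1 : Ω.lab x c = t <;> cases Ω.side x <;> simp [h1]
  simp only [e]
  have z : ∀ c x, ¬ (x = Ω.sp i ∧ c = Ω.c0) →
      (if Ω.lab x c = t ∧ Ω.side x = false then γ (Ω.mv x c) - γ x * s t else 0) = 0 := by
    intro c x hx
    split_ifs with h1
    · rw [(h x c h1.2).resolve_left hx, h1.1, sub_self]
    · rfl
  rw [Finset.sum_eq_single Ω.c0 (fun c _ hc => Finset.sum_eq_zero fun x _ => z c x fun h => hc h.2)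
    (by simp), Finset.sum_eq_single (Ω.sp i) (fun x _ hx => z _ x fun h => hx h.1) (by simp),
    Ω.sp_lab, Ω.sp_side]
  by_cases ht : t = i
  · simp [ht]
  · simp [ht, Ne.symm ht]

variable {C : Type} [CommGroup C] {P : V → K → Prop} {wt : V → K → C}
  (hP : ∀ v c, P v c → P (Ω.mv v c) c) (hw : ∀ v c, wt (Ω.mv v c) c = (wt v c)⁻¹)

omit [Fintype V] in
theorem rel_copy {v x : V} {w : FreeGroup S} {k : C} (h : (Ω.graph P wt hP hw).Rel v w x k) :
    Ω.copy x = Ω.copy v := by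
  have : ∀ L v x k, Rd (Ω.Ed P wt) v L x k → Ω.copy x = Ω.copy v := by
    intro L v x k h
    induction h with
    | nil => rfl
    | cons h _ ih =>
      obtain ⟨c, -, rfl, -⟩ := h
      rw [ih, Ω.copy_mv]
  exact this _ _ _ _ h

omit [Fintype V] in
theorem rel_edge {x : V} {c : K} (h : P x c) (hx : Ω.side x = false) :
    (Ω.graph P wt hP hw).Rel x (FreeGroup.of (Ω.lab x c)) (Ω.mv x c) (wt x c) := by
  unfold LGraph.Rel
  rw [FreeGroup.toWord_of, ← mul_one (wt x c)]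
  exact Rd.cons ⟨c, h, rfl, by rw [hx]; rfl, rfl⟩ (Rd.nil _)

theorem factor {G : Type} [Group G] (ρ : FreeGroup S × C →* G)
    (hρ : ∀ v w k, (Ω.graph P wt hP hw).Rel v w v k → ρ (w, k) = 1)
    (hsp : ∀ x c, Ω.side x = false → (∃ j, x = Ω.sp j ∧ c = Ω.c0) ∨ (P x c ∧ wt x c = 1)) (i : S) :
    ∃ (α β : Fin Ω.u → MonoidAlgebra (ZMod 2) G) (d : MonoidAlgebra (ZMod 2) G),
      (∀ w k, (Ω.graph P wt hP hw).Rel (Ω.sp i) w (Ω.mv (Ω.sp i) Ω.c0) k →
        d = MonoidAlgebra.of _ _ (ρ (w, k))) ∧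
      ((¬ ∃ w k, (Ω.graph P wt hP hw).Rel (Ω.sp i) w (Ω.mv (Ω.sp i) Ω.c0) k) → d = 0) ∧
      ∀ t, ∑ j, Ω.μ j t • β j - (∑ j, Ω.μ j t • α j) *
        MonoidAlgebra.of (ZMod 2) G (ρ (FreeGroup.of t, 1)) =
        if t = i then d - MonoidAlgebra.of (ZMod 2) G (ρ (FreeGroup.of i, 1)) else 0 := by
  classical
  set Γ := Ω.graph P wt hP hw
  let γ : V → MonoidAlgebra (ZMod 2) G := fun x =>
    if h : ∃ e : FreeGroup S × C, Γ.Rel (Ω.sp i) e.1 x e.2 then MonoidAlgebra.of _ _ (ρ h.choose)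
    else 0
  have γ1 : ∀ x w k, Γ.Rel (Ω.sp i) w x k → γ x = MonoidAlgebra.of _ _ (ρ (w, k)) := by
    intro x w k h
    have h' : ∃ e : FreeGroup S × C, Γ.Rel (Ω.sp i) e.1 x e.2 := ⟨(w, k), h⟩
    simp only [γ, dif_pos h']
    have h1 := hρ _ _ _ (h'.choose_spec.trans h.symm)
    have h2 : ((h'.choose.1 * w⁻¹, h'.choose.2 * k⁻¹) : FreeGroup S × C) =
      h'.choose * (w, k)⁻¹ := rfl
    rw [h2, map_mul, map_inv, mul_inv_eq_one] at h1
    rw [h1]
  have γ0 : ∀ x, (¬ ∃ w k, Γ.Rel (Ω.sp i) w x k) → γ x = 0 := fun x h =>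
    dif_neg fun ⟨e, he⟩ => h ⟨e.1, e.2, he⟩
  obtain ⟨α, β, h⟩ := Ω.identity γ (fun t => MonoidAlgebra.of _ _ (ρ (FreeGroup.of t, 1))) i (by
    intro x c hx
    rcases hsp x c hx with ⟨j, rfl, rfl⟩ | ⟨h1, h2⟩
    · by_cases hj : j = i
      · exact Or.inl ⟨by rw [hj], rfl⟩
      · right
        rw [γ0, γ0, zero_mul]
        · rintro ⟨w, k, h⟩
          have := Ω.rel_copy hP hw h
          rw [Ω.sp_copy, Ω.sp_copy] at this
          exact hj this
        · rintro ⟨w, k, h⟩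
          have := Ω.rel_copy hP hw h
          rw [Ω.copy_mv, Ω.sp_copy, Ω.sp_copy] at this
          exact hj this
    · right
      have he := Ω.rel_edge hP hw h1 hx
      rw [h2] at he
      by_cases hr : ∃ w k, Γ.Rel (Ω.sp i) w x k
      · obtain ⟨w, k, hr⟩ := hr
        rw [γ1 _ _ _ hr, γ1 _ _ _ (hr.trans he), ← map_mul, ← map_mul]
        rfl
      · rw [γ0 x hr, γ0, zero_mul]
        rintro ⟨w, k, h⟩
        exact hr ⟨_, _, h.trans he.symm⟩)
  refine ⟨α, β, γ (Ω.mv (Ω.sp i) Ω.c0), γ1 _, γ0 _, fun t => ?_⟩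
  rw [h t, γ1 _ _ _ (Γ.rel_one _)]
  have : ρ (1, 1) = 1 := map_one ρ
  rw [this, map_one, one_mul]

end Config

end Vale.Agent.P186
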