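import Vale.Agent.P186.Graph
import Vale.Agent.P186.Slim

/-! The Dehn property gives the linear area bound in the Cayley graph. -/

namespace Vale.Agent.P186

open FreeGroup hiding map_mul map_one map_inv
open SimpleGraph

section Words

variable {S G : Type*} [Group G] (π : FreeGroup S →* G)

/-- The sum of `χ` along the path that reads `L` from `g`. -/
def parL (χ : G → G → ZMod 2) : G → List (S × Bool) → ZMod 2
  | _, [] => 0
  | g, l :: L => χ g (g * π (FreeGroup.mk [l])) + parL χ (g * π (FreeGroup.mk [l])) L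

theorem mk_cons (l : S × Bool) (L : List (S × Bool)) :
    FreeGroup.mk (l :: L) = FreeGroup.mk [l] * FreeGroup.mk L := by
  rw [mul_mk]; rfl

theorem parL_append (χ : G → G → ZMod 2) (L₂ : List (S × Bool)) : ∀ (L₁ : List (S × Bool)) (g : G),
    parL π χ g (L₁ ++ L₂) = parL π χ g L₁ + parL π χ (g * π (FreeGroup.mk L₁)) L₂
  | [], g => by simp [parL, ← one_eq_mk]
  | l :: L₁, g => by
    rw [List.cons_append, parL, parL, parL_append χ L₂ L₁, mk_cons l L₁, map_mul, mul_assoc,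
      add_assoc]

theorem parL_red (χ : G → G → ZMod 2) (hχ : ∀ a b, χ a b = χ b a) {L L' : List (S × Bool)}
    (h : Red L L') (g : G) : parL π χ g L = parL π χ g L' := by
  induction h with
  | refl => rfl
  | tail _ hs ih =>
    rw [ih]
    cases hs with
    | @not L₁ L₂ x b =>
      rw [parL_append, parL_append, parL, parL]
      have e : FreeGroup.mk [(x, b)] * FreeGroup.mk [(x, !b)] = 1 := by
        rw [mul_mk, one_eq_mk]
        exact Quot.sound (Red.Step.not (L₁ := []) (L₂ := []))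
      rw [mul_assoc _ _ (π (FreeGroup.mk [(x, !b)])), ← map_mul, e, map_one, mul_one,
        ← add_assoc (χ _ _), hχ, CharTwo.add_self_eq_zero, zero_add]

theorem parL_tele (χ : G → G → ZMod 2) (φ : G → ZMod 2) (B : Set G)
    (hχ : ∀ a ∈ B, ∀ b ∈ B, χ a b = φ a + φ b) : ∀ (L : List (S × Bool)) (g : G),
    (∀ L₁ L₂, L = L₁ ++ L₂ → g * π (FreeGroup.mk L₁) ∈ B) →
      parL π χ g L = φ g + φ (g * π (FreeGroup.mk L))
  | [], g, _ => by simp [parL, ← one_eq_mk, CharTwo.add_self_eq_zero]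
  | l :: L, g, hB => by
    have h0 : g ∈ B := by simpa [← one_eq_mk] using hB [] _ rfl
    rw [parL, hχ g h0 _ (hB [l] L rfl), parL_tele χ φ B hχ L, mk_cons l L, map_mul, mul_assoc,
      add_assoc, ← add_assoc (φ (g * _)), CharTwo.add_self_eq_zero, zero_add]
    intro L₁ L₂ e
    have := hB (l :: L₁) L₂ (by rw [e]; rfl)
    rwa [mk_cons, map_mul, ← mul_assoc] at this

/-- The Cayley graph for the images of the free generators. -/
abbrev Cay : SimpleGraph G := mulCayley (Set.range fun s => π (FreeGroup.of s))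

theorem step_adj (g : G) (l : S × Bool) :
    g * π (FreeGroup.mk [l]) = g ∨ (Cay π).Adj g (g * π (FreeGroup.mk [l])) := by
  by_cases h : g * π (FreeGroup.mk [l]) = g
  · exact Or.inl h
  · right
    rw [mulCayley_adj']
    refine ⟨fun h' => h h'.symm, π (FreeGroup.of l.1), ⟨l.1, rfl⟩, ?_⟩
    obtain ⟨s, b⟩ := l
    cases b
    · right
      have e : FreeGroup.mk [(s, false)] * FreeGroup.of s = 1 := by
        rw [FreeGroup.of, mul_mk, one_eq_mk]
        exact Quot.sound (Red.Step.not (L₁ := []) (L₂ := []))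
      rw [mul_assoc, ← map_mul, e, map_one, mul_one]
    · left; rfl

theorem adj_step {a b : G} (h : (Cay π).Adj a b) : ∃ l, b = a * π (FreeGroup.mk [l]) := by
  rw [mulCayley_adj'] at h
  obtain ⟨-, _, ⟨s, rfl⟩, h | h⟩ := h
  · exact ⟨(s, true), h.symm⟩
  · refine ⟨(s, false), ?_⟩
    have e : FreeGroup.of s * FreeGroup.mk [(s, false)] = 1 := by
      rw [FreeGroup.of, mul_mk, one_eq_mk]
      exact Quot.sound (Red.Step.not (L₁ := []) (L₂ := []))
    rw [h, mul_assoc, ← map_mul, e, map_one, mul_one]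

theorem walk_word {a b : G} (w : (Cay π).Walk a b) : ∃ L : List (S × Bool),
    L.length = w.length ∧ a * π (FreeGroup.mk L) = b ∧ ∀ χ, par χ w = parL π χ a L := by
  induction w with
  | nil => exact ⟨[], rfl, by simp [← one_eq_mk], fun _ => rfl⟩
  | cons h p ih =>
    obtain ⟨L, h1, h2, h3⟩ := ih
    obtain ⟨l, rfl⟩ := adj_step π h
    refine ⟨l :: L, by simp [h1], by rw [mk_cons, map_mul, ← mul_assoc, h2], fun χ => ?_⟩
    rw [par_cons, parL, h3]

theorem cay_connected (hπ : Function.Surjective π) : (Cay π).Connected := by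
  have key : ∀ (L : List (S × Bool)) (g : G), (Cay π).Reachable g (g * π (FreeGroup.mk L)) := by
    intro L
    induction L with
    | nil => intro g; simp [← one_eq_mk]
    | cons l L ih =>
      intro g
      rw [mk_cons, map_mul, ← mul_assoc]
      refine Reachable.trans ?_ (ih _)
      rcases step_adj π g l with h | h
      · rw [h]
      · exact h.reachable
  refine ⟨fun a b => ?_⟩
  obtain ⟨⟨L⟩, hw⟩ := hπ (a⁻¹ * b)
  have := key L a
  rw [quot_mk_eq_mk] at hw
  rwa [hw, mul_inv_cancel_left] at this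

theorem lip_word {h : G → ℕ} (hh : ∀ a b, (Cay π).Adj a b → h a ≤ h b + 1) :
    ∀ (L : List (S × Bool)) (g : G), h (g * π (FreeGroup.mk L)) ≤ h g + L.length ∧
      h g ≤ h (g * π (FreeGroup.mk L)) + L.length
  | [], g => by simp [← one_eq_mk]
  | l :: L, g => by
    have ih := lip_word hh L (g * π (FreeGroup.mk [l]))
    rw [mk_cons, map_mul, ← mul_assoc, List.length_cons]
    rcases step_adj π g l with e | e
    · rw [e] at ih ⊢; omega
    · have := hh _ _ e
      have := hh _ _ e.symm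
      omega

omit [Group G] in
theorem chi_symm (h f : G → ℕ) (τ t : ℕ) (a b : G) : chi h f τ t a b = chi h f τ t b a := by
  unfold chi
  simp only [and_comm, add_comm]

theorem local_loop (h f : G → ℕ) (τ t D : ℕ) (L : List (S × Bool)) (g : G)
    (hL : π (FreeGroup.mk L) = 1)
    (hB : ∀ L₁ L₂, L = L₁ ++ L₂ → (h (g * π (FreeGroup.mk L₁)) ≤ h g + D ∧
      h g ≤ h (g * π (FreeGroup.mk L₁)) + D) ∧ (f (g * π (FreeGroup.mk L₁)) ≤ f g + D ∧
      f g ≤ f (g * π (FreeGroup.mk L₁)) + D))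
    (hne : parL π (chi h f τ t) g L ≠ 0) :
    (τ, t) ∈ Finset.Icc (h g - D) (h g + D) ×ˢ Finset.Icc (f g - D) (f g + D) := by
  have tele : ∀ φ : G → ZMod 2, (∀ a b, ((h a ≤ h g + D ∧ h g ≤ h a + D) ∧
      (f a ≤ f g + D ∧ f g ≤ f a + D)) → ((h b ≤ h g + D ∧ h g ≤ h b + D) ∧
      (f b ≤ f g + D ∧ f g ≤ f b + D)) → chi h f τ t a b = φ a + φ b) → False := by
    intro φ hφ
    apply hne
    rw [parL_tele π _ φ {a | (h a ≤ h g + D ∧ h g ≤ h a + D) ∧ (f a ≤ f g + D ∧ f g ≤ f a + D)}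
      (fun a ha b hb => hφ a b ha hb) L g hB, hL, mul_one, CharTwo.add_self_eq_zero]
  simp only [Finset.mem_product, Finset.mem_Icc]
  refine ⟨⟨?_, ?_⟩, ?_, ?_⟩ <;> by_contra hlt
  · refine tele (fun _ => 0) (fun a b ha hb => ?_)
    have e1 : ¬ h a ≤ τ := by omega
    have e2 : ¬ h b ≤ τ := by omega
    simp [chi, e1, e2]
  · refine tele (fun _ => 0) (fun a b ha hb => ?_)
    have e1 : h a ≤ τ := by omega
    have e2 : h b ≤ τ := by omega
    simp [chi, e1, e2, CharTwo.add_self_eq_zero]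
  · refine tele (fun a => if h a ≤ τ then 1 else 0) (fun a b ha hb => ?_)
    have e1 : t < f a := by omega
    have e2 : t < f b := by omega
    simp [chi, e1, e2]
  · refine tele (fun _ => 0) (fun a b ha hb => ?_)
    have e1 : ¬ t < f a := by omega
    simp [chi, e1]

variable [DecidableEq S]

theorem parL_mul (χ : G → G → ZMod 2) (hχ : ∀ a b, χ a b = χ b a) (g : G) (x y : FreeGroup S) :
    parL π χ g (x * y).toWord = parL π χ g x.toWord + parL π χ (g * π x) y.toWord := by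
  rw [toWord_mul, ← parL_red π χ hχ reduce.red, parL_append, mk_toWord]

end Words

namespace LGraph

variable {S V C : Type*} [CommGroup C] [DecidableEq S] (Γ : LGraph S V C)

/-- The normal subgroup of the free group generated by the labels of closed paths. -/
def N : Subgroup (FreeGroup S) := Γ.NN.map (MonoidHom.fst _ _)

instance N_normal : Γ.N.Normal := Subgroup.Normal.map Γ.NN_normal _ Prod.fst_surjective

theorem mem_N_of_H {c : Γ.Cell} {h : FreeGroup S × C} (hh : h ∈ Γ.H c) : h.1 ∈ Γ.N :=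
  ⟨h, Γ.H_le_NN c hh, rfl⟩

theorem shortN {n : FreeGroup S} (hn : n ∈ Γ.N) (h1 : n ≠ 1) :
    ∃ c p p' h, p ∈ Γ.A c ∧ p' ∈ Γ.A c ∧ h ∈ Γ.H c ∧
      fd 1 p + fd p p' + fd p' n = fd 1 n ∧ fd p (h.1 * p') ≤ 4 * Γ.r + 3 ∧
      Γ.g ≤ fd p p' + (4 * Γ.r + 3) := by
  obtain ⟨e, he, rfl⟩ := hn
  exact Γ.short he (fun h => h1 (by rw [h]; rfl))

/-- The quotient map. -/
abbrev π : FreeGroup S →* FreeGroup S ⧸ Γ.N := QuotientGroup.mk' Γ.N

theorem π_eq_one {n : FreeGroup S} : Γ.π n = 1 ↔ n ∈ Γ.N := QuotientGroup.eq_one_iff n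

theorem area [Finite V] : ∃ K, AreaBound (Cay Γ.π) K := by
  classical
  obtain ⟨D, hD⟩ := Γ.bounded
  refine ⟨(2 * D + 1) * (2 * D + 1), fun h f hh hf => ?_⟩
  have key : ∀ (m : ℕ) (n : FreeGroup S), n ∈ Γ.N → fd 1 n = m → ∀ (g : FreeGroup S ⧸ Γ.N)
      (Q : Finset (ℕ × ℕ)), (∀ a ∈ Q, parL Γ.π (chi h f a.1 a.2) g n.toWord ≠ 0) →
      Q.card ≤ (2 * D + 1) * (2 * D + 1) * m := by
    intro m
    induction m using Nat.strong_induction_on with
    | _ m ih =>
    intro n hn hm g Q hQ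
    by_cases h1 : n = 1
    · subst h1
      have : Q = ∅ := Finset.eq_empty_of_forall_notMem (fun a ha => hQ a ha rfl)
      simp [this]
    obtain ⟨c, p, p', k, hp, hp', hk, e1, e2, e3⟩ := Γ.shortN hn h1
    have hlt : fd 1 (k.1 * n) < m := by
      have t1 := fd_tri 1 p (k.1 * n)
      have t2 := fd_tri p (k.1 * p') (k.1 * n)
      rw [fd_mul] at t2
      have := Γ.big
      omega
    have hk1 : Γ.π k.1 = 1 := Γ.π_eq_one.2 (Γ.mem_N_of_H hk)
    have hkk : Γ.π (p⁻¹ * k.1⁻¹ * p) = 1 := by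
      rw [map_mul, map_mul, map_inv, map_inv, hk1]; group
    have split : ∀ χ : _ → _ → ZMod 2, (∀ a b, χ a b = χ b a) → parL Γ.π χ g n.toWord =
        parL Γ.π χ (g * Γ.π p) (p⁻¹ * k.1⁻¹ * p).toWord + parL Γ.π χ g (k.1 * n).toWord := by
      intro χ hχ
      have e : n = p * ((p⁻¹ * k.1⁻¹ * p) * (p⁻¹ * (k.1 * n))) := by group
      have z := parL_mul Γ.π χ hχ g p p⁻¹
      rw [mul_inv_cancel] at z
      conv_lhs => rw [e]
      rw [parL_mul _ _ hχ g p, parL_mul _ _ hχ _ (p⁻¹ * k.1⁻¹ * p), parL_mul _ _ hχ _ p⁻¹ (k.1 * n),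
        hkk, mul_one, mul_assoc g, ← map_mul, mul_inv_cancel, map_one, mul_one]
      have z0 : parL Γ.π χ g (1 : FreeGroup S).toWord = 0 := rfl
      linear_combination z0 - z
    have hpk : k.1⁻¹ * p ∈ Γ.A c := Γ.mill.A_fix (inv_mem hk) hp
    have q1 : (Q.filter fun a => parL Γ.π (chi h f a.1 a.2) (g * Γ.π p)
        (p⁻¹ * k.1⁻¹ * p).toWord ≠ 0).card ≤ (2 * D + 1) * (2 * D + 1) := by
      refine (Finset.card_le_card (t := Finset.Icc (h (g * Γ.π p) - D) (h (g * Γ.π p) + D) ×ˢ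
        Finset.Icc (f (g * Γ.π p) - D) (f (g * Γ.π p) + D)) ?_).trans ?_
      · intro a ha
        refine local_loop Γ.π h f a.1 a.2 D _ _ (by rw [mk_toWord, hkk]) ?_
          (Finset.mem_filter.1 ha).2
        intro L₁ L₂ e
        have hr : IsReduced (L₁ ++ L₂) := e ▸ isReduced_toWord
        have hb : Btw fd 1 (FreeGroup.mk L₁) (p⁻¹ * k.1⁻¹ * p) :=
          btw_one_iff.2 ⟨L₂, by rw [toWord_mk_red (red_left hr), e]⟩
        have hb' := (btw_mul p).2 hb
        have e' : p * (p⁻¹ * k.1⁻¹ * p) = k.1⁻¹ * p := by group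
        rw [mul_one, e'] at hb'
        obtain ⟨k', hk', hd⟩ := hD c p hp _ (Γ.mill.conv c p hp _ hpk _ hb')
        have hk1' : Γ.π k'.1 = 1 := Γ.π_eq_one.2 (Γ.mem_N_of_H hk')
        have e4 : Γ.π (FreeGroup.mk L₁) =
            Γ.π (FreeGroup.mk (p⁻¹ * (k'.1 * (p * FreeGroup.mk L₁))).toWord) := by
          rw [mk_toWord, map_mul, map_mul, map_mul, map_inv, hk1']; group
        have l1 := lip_word Γ.π hh (p⁻¹ * (k'.1 * (p * FreeGroup.mk L₁))).toWord (g * Γ.π p)
        have l2 := lip_word Γ.π hf (p⁻¹ * (k'.1 * (p * FreeGroup.mk L₁))).toWord (g * Γ.π p)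
        have e5 : (p⁻¹ * (k'.1 * (p * FreeGroup.mk L₁))).toWord.length ≤ D := hd
        rw [e4]
        omega
      · rw [Finset.card_product, Nat.card_Icc, Nat.card_Icc]
        exact Nat.mul_le_mul (by omega) (by omega)
    have q2 := ih _ hlt (k.1 * n) (mul_mem (Γ.mem_N_of_H hk) hn) rfl g
      (Q.filter fun a => parL Γ.π (chi h f a.1 a.2) g (k.1 * n).toWord ≠ 0)
      (fun a ha => (Finset.mem_filter.1 ha).2)
    have q3 : Q ⊆ (Q.filter fun a => parL Γ.π (chi h f a.1 a.2) (g * Γ.π p)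
        (p⁻¹ * k.1⁻¹ * p).toWord ≠ 0) ∪
        (Q.filter fun a => parL Γ.π (chi h f a.1 a.2) g (k.1 * n).toWord ≠ 0) := by
      intro a ha
      have := hQ a ha
      rw [split _ (chi_symm h f a.1 a.2)] at this
      by_contra hc
      simp only [Finset.mem_union, Finset.mem_filter, ha, true_and, not_or, not_not] at hc
      exact this (by rw [hc.1, hc.2, add_zero])
    have q4 := (Finset.card_le_card q3).trans (Finset.card_union_le _ _)
    have q5 := Nat.mul_le_mul_left ((2 * D + 1) * (2 * D + 1)) (Nat.succ_le_of_lt hlt)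
    rw [Nat.mul_succ] at q5
    omega
  intro v w Q hQ
  obtain ⟨L, h1, h2, h3⟩ := walk_word Γ.π w
  have hL : FreeGroup.mk L ∈ Γ.N := Γ.π_eq_one.1 (by simpa using h2)
  refine (key _ _ hL rfl v Q (fun a ha => ?_)).trans (Nat.mul_le_mul_left _ ?_)
  · rw [toWord_mk, ← parL_red _ _ (chi_symm h f a.1 a.2) reduce.red, ← h3]
    exact hQ a ha
  · rw [← h1]
    simpa [fd] using norm_mk_le (L₁ := L)

theorem slim [Finite V] : ∃ δ, ∀ n, Tri (Cay Γ.π) n δ := by
  obtain ⟨K, hK⟩ := Γ.area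
  exact ⟨_, slim_of_area (cay_connected _ (QuotientGroup.mk'_surjective _)) hK⟩

end LGraph

end Vale.Agent.P186
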