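import Vale.Agent.P186.Config

/-! A properly edge coloured regular graph of large girth and controlled size. -/

namespace Vale.Agent.P186

open Polynomial

variable {K : Type} [Field K]

/-- The elementary involutions. -/
def tm {A : Type} [CommRing A] (x c : A) : Matrix (Fin 2) (Fin 2) A :=
  !![1 - c * x, x; -(c * c * x), 1 + c * x]

theorem tm_sq {A : Type} [CommRing A] (h2 : (2 : A) = 0) (x c : A) : tm x c * tm x c = 1 := by
  ext i j
  fin_cases i <;> fin_cases j <;> simp [tm, Matrix.mul_apply, Fin.sum_univ_two]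
  · linear_combination (-c * x) * h2
  · linear_combination x * h2
  · linear_combination (-c * c * x) * h2
  · linear_combination (c * x) * h2

theorem tm_top (cs : ℕ → K) (n : ℕ) (hc : ∀ j, j + 1 < n + 1 → cs j ≠ cs (j + 1)) :
    let M := walk (fun (M : Matrix (Fin 2) (Fin 2) K[X]) c => M * tm X (C c)) 1 cs (n + 1)
    (∀ i, n + 1 < i → (M 0 0).coeff i = 0 ∧ (M 0 1).coeff i = 0) ∧ (M 0 1).coeff (n + 1) ≠ 0 ∧
      (M 0 0).coeff (n + 1) = -(cs n * (M 0 1).coeff (n + 1)) := by
  induction n with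
  | zero =>
    simp only [walk, one_mul, tm]
    refine ⟨fun i hi => ?_, by simp, by simp [coeff_one]⟩
    obtain ⟨i, rfl⟩ : ∃ k, i = k + 2 := ⟨i - 2, by omega⟩
    simp [coeff_one, coeff_X]
  | succ n ih =>
    obtain ⟨h1, h2, h3⟩ := ih (fun j hj => hc j (by omega))
    intro M
    set N := walk (fun (M : Matrix (Fin 2) (Fin 2) K[X]) c => M * tm X (C c)) 1 cs (n + 1)
    have e0 : M 0 0 = N 0 0 - C (cs (n + 1)) * ((N 0 0 + C (cs (n + 1)) * N 0 1) * X) := by
      show (N * tm X (C (cs (n + 1)))) 0 0 = _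
      simp [tm, Matrix.mul_apply, Fin.sum_univ_two]; ring
    have e1 : M 0 1 = N 0 1 + (N 0 0 + C (cs (n + 1)) * N 0 1) * X := by
      show (N * tm X (C (cs (n + 1)))) 0 1 = _
      simp [tm, Matrix.mul_apply, Fin.sum_univ_two]; ring
    rw [e0, e1]
    refine ⟨fun i hi => ?_, ?_, ?_⟩
    · obtain ⟨i, rfl⟩ : ∃ k, i = k + 1 := ⟨i - 1, by omega⟩
      simp [coeff_mul_X, (h1 i (by omega)).1, (h1 i (by omega)).2, (h1 (i + 1) (by omega)).1,
        (h1 (i + 1) (by omega)).2]
    · simp only [coeff_add, coeff_mul_X, coeff_C_mul, (h1 (n + 1 + 1) (by omega)).2, h3, zero_add]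
      intro h
      have : (cs (n + 1) - cs n) * (N 0 1).coeff (n + 1) = 0 := by linear_combination h
      rcases mul_eq_zero.1 this with h | h
      · exact hc n (by omega) (sub_eq_zero.1 h).symm
      · exact h2 h
    · simp only [coeff_add, coeff_sub, coeff_mul_X, coeff_C_mul, (h1 (n + 1 + 1) (by omega)).2,
        (h1 (n + 1 + 1) (by omega)).1, zero_add, zero_sub]

theorem exists_base (K : Type) [Field K] [Fintype K] [CharP K 2] (g : ℕ) :
    ∃ (H : Type) (_ : Fintype H) (st : H → K → H) (_ : H), (∀ h c, st (st h c) c = h) ∧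
      (∀ h (cs : ℕ → K) n, (∀ j, j + 1 < n → cs j ≠ cs (j + 1)) → 0 < n → walk st h cs n = h →
        g ≤ n) ∧ Fintype.card H ≤ Fintype.card K ^ (4 * g) := by
  classical
  let A := AdjoinRoot (X ^ g : K[X])
  have hm : (X ^ g : K[X]).Monic := monic_X_pow g
  have hfin : Module.Finite K A := (AdjoinRoot.powerBasis' hm).finite
  have : Finite A := Module.finite_of_finite K
  let : Fintype A := Fintype.ofFinite A
  have hA : Fintype.card A = Fintype.card K ^ g := by
    rw [Module.card_eq_pow_finrank (K := K) (V := A), (AdjoinRoot.powerBasis' hm).finrank]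
    simp
  have h2 : (2 : A) = 0 := by
    have : (2 : K) = 0 := CharTwo.two_eq_zero
    have h := congrArg (algebraMap K A) this
    rwa [map_ofNat, map_zero] at h
  let φ : K[X] →+* A := AdjoinRoot.mk _
  let t : K → (Matrix (Fin 2) (Fin 2) A)ˣ := fun c =>
    ⟨tm (φ X) (φ (C c)), tm (φ X) (φ (C c)), tm_sq h2 _ _, tm_sq h2 _ _⟩
  let : Fintype (Matrix (Fin 2) (Fin 2) A)ˣ := Fintype.ofFinite _
  refine ⟨(Matrix (Fin 2) (Fin 2) A)ˣ, inferInstance, fun h c => h * t c, 1, ?_, ?_, ?_⟩
  · intro h c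
    have : t c * t c = 1 := Units.ext (tm_sq h2 _ _)
    show h * t c * t c = h
    rw [mul_assoc, this, mul_one]
  · intro h cs n hc hn hw
    have key : ∀ m, ((walk (fun h c => h * t c) h cs m : (Matrix (Fin 2) (Fin 2) A)ˣ) :
        Matrix (Fin 2) (Fin 2) A) = h * φ.mapMatrix
        (walk (fun (M : Matrix (Fin 2) (Fin 2) K[X]) c => M * tm X (C c)) 1 cs m) := by
      intro m
      induction m with
      | zero => simp [walk]
      | succ m ih =>
        simp only [walk, Units.val_mul, ih, map_mul, mul_assoc]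
        congr 2
        ext i j
        fin_cases i <;> fin_cases j <;> simp [t, tm]
    obtain ⟨n, rfl⟩ : ∃ k, n = k + 1 := ⟨n - 1, by omega⟩
    have h1 := key (n + 1)
    rw [hw] at h1
    have h3 := (Units.mul_right_inj h).1 ((mul_one _).trans h1)
    have h4 := congrFun (congrFun h3 0) 1
    simp only [RingHom.mapMatrix_apply, Matrix.map_apply, ne_eq, zero_ne_one, not_false_eq_true,
      Matrix.one_apply_ne] at h4
    have h5 := X_pow_dvd_iff.1 (AdjoinRoot.mk_eq_zero.1 h4.symm)
    by_contra hlt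
    exact (tm_top cs n hc).2.1 (h5 _ (by omega))
  · refine (Fintype.card_le_of_injective _ Units.val_injective).trans ?_
    have e : Fintype.card (Matrix (Fin 2) (Fin 2) A) = Fintype.card (Fin 2 → Fin 2 → A) :=
      Fintype.card_congr Matrix.of.symm
    rw [e]
    simp only [Fintype.card_pi, Finset.prod_const, Finset.card_univ, Fintype.card_fin, hA,
      ← pow_mul]
    exact le_of_eq (congrArg _ (by ring))

end Vale.Agent.P186
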