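import Vale.Agent.P186.Graph

/-! Edge coloured labelled graphs, and the folded graphs obtained from them by deleting edges
or by putting weights on edges. -/

namespace Vale.Agent.P186

open FreeGroup

/-- The walk following a sequence of colours. -/
def walk {V K : Type*} (mv : V → K → V) (v : V) (cs : ℕ → K) : ℕ → V
  | 0 => v
  | j + 1 => mv (walk mv v cs j) (cs j)

theorem walk_add {V K : Type*} (mv : V → K → V) (v : V) (cs : ℕ → K) (j : ℕ) :
    ∀ n, walk mv v cs (j + n) = walk mv (walk mv v cs j) (fun i => cs (j + i)) n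
  | 0 => rfl
  | n + 1 => by
    show mv (walk mv v cs (j + n)) (cs (j + n)) = mv _ _
    rw [walk_add mv v cs j n]

/-- A coloured labelled bipartite graph with large girth, short pieces, label sets of small
rank and one special edge in each copy. -/
structure Config (S K V : Type) [Fintype S] [DecidableEq S] [Fintype K] where
  mv : V → K → V
  lab : V → K → S
  side : V → Bool
  copy : V → S
  mv_mv : ∀ v c, mv (mv v c) c = v
  lab_mv : ∀ v c, lab (mv v c) c = lab v c
  side_mv : ∀ v c, side (mv v c) = !side v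
  copy_mv : ∀ v c, copy (mv v c) = copy v
  lab_inj : ∀ v c c', lab v c = lab v c' → c = c'
  r : ℕ
  g : ℕ
  girth : ∀ v (cs : ℕ → K) n, (∀ j, j + 1 < n → cs j ≠ cs (j + 1)) → 0 < n →
    walk mv v cs n = v → g ≤ n
  piece : ∀ v v' (cs cs' : ℕ → K), (∀ j, j < r → cs j ≠ cs (j + 1)) →
    (∀ j, j < r → cs' j ≠ cs' (j + 1)) → side v = side v' →
    (∀ j ≤ r, lab (walk mv v cs j) (cs j) = lab (walk mv v' cs' j) (cs' j)) → v = v'
  big : 10 * r + 10 < g
  sp : S → V
  c0 : K
  sp_copy : ∀ i, copy (sp i) = i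
  sp_side : ∀ i, side (sp i) = false
  sp_lab : ∀ i, lab (sp i) c0 = i
  u : ℕ
  μ : Fin u → S → ZMod 2
  span : ∀ v, ∃ a : Fin u → ZMod 2, ∀ t,
    (∑ c, if lab v c = t then (1 : ZMod 2) else 0) = ∑ j, a j * μ j t
  small : 4 * u < Fintype.card S

namespace Config

variable {S K V : Type} [Fintype S] [DecidableEq S] [Fintype K] (Ω : Config S K V)
variable {C : Type} [CommGroup C]

/-- The edges that are kept, with their weights. -/
def Ed (P : V → K → Prop) (wt : V → K → C) (v : V) (l : S × Bool) (v' : V) (k : C) : Prop :=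
  ∃ c, P v c ∧ v' = Ω.mv v c ∧ l = (Ω.lab v c, !Ω.side v) ∧ k = wt v c

theorem rd_walk {P : V → K → Prop} {wt : V → K → C} {v v' : V} {L : List (S × Bool)} {k : C}
    (h : Rd (Ω.Ed P wt) v L v' k) : ∃ cs : ℕ → K, walk Ω.mv v cs L.length = v' ∧
      ∀ j (hj : j < L.length),
        L[j] = (Ω.lab (walk Ω.mv v cs j) (cs j), !Ω.side (walk Ω.mv v cs j)) := by
  induction h with
  | nil v => exact ⟨fun _ => Ω.c0, rfl, fun j hj => absurd hj (by simp)⟩
  | @cons v v₁ v' l L k₁ k h _ ih =>
    obtain ⟨c, -, rfl, rfl, -⟩ := h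
    obtain ⟨cs, h1, h2⟩ := ih
    have hw : ∀ j, walk Ω.mv v (fun i => Nat.casesOn i c cs) (j + 1) =
        walk Ω.mv (Ω.mv v c) cs j := by
      intro j
      induction j with
      | zero => rfl
      | succ j ih => exact congrArg (fun x => Ω.mv x (cs j)) ih
    refine ⟨fun i => Nat.casesOn i c cs, ?_, ?_⟩
    · rw [List.length_cons, hw, h1]
    · intro j hj
      cases j with
      | zero => rfl
      | succ j =>
        rw [hw]
        exact h2 j (by simpa using hj)

theorem chain_of_red {v : V} {L : List (S × Bool)} {cs : ℕ → K} (hL : IsReduced L)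
    (h : ∀ j (hj : j < L.length),
      L[j] = (Ω.lab (walk Ω.mv v cs j) (cs j), !Ω.side (walk Ω.mv v cs j))) :
    ∀ j, j + 1 < L.length → cs j ≠ cs (j + 1) := by
  intro j hj hc
  have := List.isChain_iff_getElem.1 hL j hj
  rw [h j (by omega), h (j + 1) hj] at this
  simp only [walk, ← hc, Ω.lab_mv, Ω.side_mv] at this
  simpa using this trivial

/-- The folded graph of a configuration. -/
def graph (P : V → K → Prop) (wt : V → K → C) (hP : ∀ v c, P v c → P (Ω.mv v c) c)
    (hw : ∀ v c, wt (Ω.mv v c) c = (wt v c)⁻¹) : LGraph S V C where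
  Ed := Ω.Ed P wt
  func := by
    rintro v l v₁ k₁ v₂ k₂ ⟨c, -, rfl, rfl, rfl⟩ ⟨c', -, rfl, h, rfl⟩
    obtain rfl := Ω.lab_inj v c c' (congrArg Prod.fst h)
    exact ⟨rfl, rfl⟩
  symm := by
    rintro v l v' k ⟨c, h, rfl, rfl, rfl⟩
    exact ⟨c, hP v c h, (Ω.mv_mv v c).symm, by rw [Ω.lab_mv, Ω.side_mv], (hw v c).symm⟩
  r := Ω.r
  g := Ω.g
  girth := by
    intro v L k h hL hne
    obtain ⟨cs, h1, h2⟩ := Ω.rd_walk h
    exact Ω.girth v cs _ (Ω.chain_of_red hL h2) (List.length_pos_iff.2 hne) h1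
  piece := by
    intro v w k v' w' k' L h h' hL hr
    obtain ⟨cs, -, h2⟩ := Ω.rd_walk h
    obtain ⟨cs', -, h2'⟩ := Ω.rd_walk h'
    refine Ω.piece v v' cs cs' (fun j hj => Ω.chain_of_red hL h2 j (by omega))
      (fun j hj => Ω.chain_of_red hL h2' j (by omega)) ?_ (fun j hj => ?_)
    · have := (h2 0 (by omega)).symm.trans (h2' 0 (by omega))
      simpa [walk] using congrArg Prod.snd this
    · exact congrArg Prod.fst ((h2 j (by omega)).symm.trans (h2' j (by omega)))
  big := Ω.big

end Config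

end Vale.Agent.P186
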