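import Vale.Agent.P186.Config

/-! Random lifts of a coloured base graph: first moment bound for repeated words. -/

namespace Vale.Agent.P186

open scoped Classical

/-- Data for a random lift. -/
structure Lift (K S Z B : Type) [Field K] [AddCommGroup S] [Module K S] [AddCommGroup Z] where
  dir : Z → S
  bmv : B → K → B
  side : B → Bool
  g : ℕ
  dir_inj : Function.Injective dir
  dir_ne : ∀ z, dir z ≠ 0
  two : ∀ z : Z, z + z = 0
  bmv_bmv : ∀ x c, bmv (bmv x c) c = x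
  side_bmv : ∀ x c, side (bmv x c) = !side x
  girth : ∀ x (cs : ℕ → K) n, (∀ j, j + 1 < n → cs j ≠ cs (j + 1)) → 0 < n →
    walk bmv x cs n = x → g ≤ n

namespace Lift

variable {K S Z B : Type} [Field K] [AddCommGroup S] [Module K S] [AddCommGroup Z]
variable (Λ : Lift K S Z B)

/-- The name of a base edge. -/
def key (x : B) (c : K) : B × K := (if Λ.side x then Λ.bmv x c else x, c)

/-- The label of an edge of the lift. -/
def lab (v : B × S × Z) (c : K) : S := v.2.1 + c • Λ.dir v.2.2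

/-- The other end of an edge of the lift. -/
def mv (ω : B × K → Z) (v : B × S × Z) (c : K) : B × S × Z :=
  (Λ.bmv v.1 c, Λ.lab v c - c • Λ.dir (v.2.2 + ω (Λ.key v.1 c)), v.2.2 + ω (Λ.key v.1 c))

theorem key_mv (x : B) (c : K) : Λ.key (Λ.bmv x c) c = Λ.key x c := by
  unfold key
  rw [Λ.side_bmv, Λ.bmv_bmv]
  cases Λ.side x <;> simp

theorem key_eq {x x' : B} {c c' : K} (h : Λ.key x c = Λ.key x' c') :
    c = c' ∧ (x = x' ∨ (x = Λ.bmv x' c' ∧ Λ.side x ≠ Λ.side x')) := by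
  obtain ⟨h1, rfl⟩ := Prod.mk.inj h
  refine ⟨rfl, ?_⟩
  cases hx : Λ.side x <;> cases hx' : Λ.side x' <;> simp only [hx, hx'] at h1
  · exact Or.inl (by simpa using h1)
  · exact Or.inr ⟨by simpa using h1, by simp⟩
  · refine Or.inr ⟨?_, by simp⟩
    have : Λ.bmv x c = x' := by simpa using h1
    rw [← this, Λ.bmv_bmv]
  · left
    have : Λ.bmv x c = Λ.bmv x' c := by simpa using h1
    rw [← Λ.bmv_bmv x c, this, Λ.bmv_bmv]

theorem lab_mv (ω : B × K → Z) (v : B × S × Z) (c : K) : Λ.lab (Λ.mv ω v c) c = Λ.lab v c := by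
  simp [lab, mv]

theorem lab_step (ω : B × K → Z) (v : B × S × Z) (c c' : K) :
    Λ.lab (Λ.mv ω v c) c' = Λ.lab v c + (c' - c) • Λ.dir (v.2.2 + ω (Λ.key v.1 c)) := by
  simp only [lab, mv, sub_smul]
  abel

theorem mv_mv (ω : B × K → Z) (v : B × S × Z) (c : K) : Λ.mv ω (Λ.mv ω v c) c = v := by
  have e : (Λ.mv ω v c).2.2 + ω (Λ.key (Λ.mv ω v c).1 c) = v.2.2 := by
    simp only [mv, key_mv, add_assoc, Λ.two, add_zero]
  refine Prod.ext (Λ.bmv_bmv _ _) (Prod.ext ?_ e)
  show Λ.lab (Λ.mv ω v c) c - c • Λ.dir _ = _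
  rw [e, lab_mv]
  simp [lab]

theorem lab_inj (v : B × S × Z) (c c' : K) (h : Λ.lab v c = Λ.lab v c') : c = c' :=
  smul_left_injective K (Λ.dir_ne v.2.2) (add_left_cancel h)

theorem dir_cancel {c c' : K} (hc : c ≠ c') {z z' : Z}
    (h : (c' - c) • Λ.dir z = (c' - c) • Λ.dir z') : z = z' :=
  Λ.dir_inj (smul_right_injective S (sub_ne_zero.2 hc.symm) h)

theorem walk_fst (ω : B × K → Z) (v : B × S × Z) (cs : ℕ → K) :
    ∀ j, (walk (Λ.mv ω) v cs j).1 = walk Λ.bmv v.1 cs j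
  | 0 => rfl
  | j + 1 => congrArg (fun x => Λ.bmv x (cs j)) (walk_fst ω v cs j)

/-- The base edges along a walk. -/
def e (v : B × S × Z) (cs : ℕ → K) (j : ℕ) : B × K := Λ.key (walk Λ.bmv v.1 cs j) (cs j)

theorem walk_congr {ω ω' : B × K → Z} (v : B × S × Z) (cs : ℕ → K) :
    ∀ j, (∀ i < j, ω (Λ.e v cs i) = ω' (Λ.e v cs i)) →
      walk (Λ.mv ω) v cs j = walk (Λ.mv ω') v cs j
  | 0, _ => rfl
  | j + 1, h => by
    have h1 := walk_congr v cs j (fun i hi => h i (by omega))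
    have h2 := h j (by omega)
    unfold e at h2
    rw [← Λ.walk_fst ω'] at h2
    simp only [walk, h1, mv, h2]

theorem side_walk {x x' : B} (h : Λ.side x = Λ.side x') (cs cs' : ℕ → K) :
    ∀ j, Λ.side (walk Λ.bmv x cs j) = Λ.side (walk Λ.bmv x' cs' j)
  | 0 => h
  | j + 1 => by simp only [walk, Λ.side_bmv, side_walk h cs cs' j]

theorem back (ω : B × K → Z) {v v' : B × S × Z} {cs cs' : ℕ → K} :
    ∀ j, (∀ i < j, Λ.lab (walk (Λ.mv ω) v cs i) (cs i) = Λ.lab (walk (Λ.mv ω) v' cs' i) (cs' i)) →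
      walk (Λ.mv ω) v cs j = walk (Λ.mv ω) v' cs' j → v = v'
  | 0, _, h => h
  | j + 1, h, h1 => by
    refine back ω j (fun i hi => h i (by omega)) ?_
    have h2 := h j (by omega)
    rw [← Λ.lab_mv ω, ← Λ.lab_mv ω _ (cs' j)] at h2
    simp only [walk] at h1
    rw [h1] at h2
    have h3 := Λ.lab_inj _ _ _ h2
    rw [← Λ.mv_mv ω (walk (Λ.mv ω) v cs j) (cs j), h1, h3, Λ.mv_mv]

theorem vert_ne {x : B} {cs : ℕ → K} {r : ℕ} (hc : ∀ j < r, cs j ≠ cs (j + 1)) (hr : r < Λ.g)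
    {j k : ℕ} (hjk : j < k) (hk : k ≤ r) : walk Λ.bmv x cs j ≠ walk Λ.bmv x cs k := by
  intro h
  obtain ⟨n, rfl⟩ := Nat.exists_eq_add_of_le hjk.le
  rw [walk_add] at h
  have := Λ.girth _ _ n (fun i hi => hc (j + i) (by omega)) (by omega) h.symm
  omega

theorem e_ne {v : B × S × Z} {cs : ℕ → K} {r : ℕ} (hc : ∀ j < r, cs j ≠ cs (j + 1))
    (hr : r < Λ.g) {j k : ℕ} (hjk : j < k) (hk : k < r) : Λ.e v cs j ≠ Λ.e v cs k := by
  intro h
  rcases (Λ.key_eq h).2 with h | h
  · exact Λ.vert_ne hc hr hjk hk.le h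
  · exact Λ.vert_ne hc hr (Nat.lt_succ_of_lt hjk) hk h.1

variable [Fintype K] [Fintype Z] [Fintype B]

/-- The event that two walks read the same labels. -/
noncomputable def ev (v : B × S × Z) (cs : ℕ → K) (v' : B × S × Z) (cs' : ℕ → K) (j : ℕ) :
    Finset (B × K → Z) :=
  Finset.univ.filter fun ω => ∀ i ≤ j,
    Λ.lab (walk (Λ.mv ω) v cs i) (cs i) = Λ.lab (walk (Λ.mv ω) v' cs' i) (cs' i)

theorem mem_ev {v : B × S × Z} {cs : ℕ → K} {v' : B × S × Z} {cs' : ℕ → K} {j : ℕ}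
    {ω : B × K → Z} : ω ∈ Λ.ev v cs v' cs' j ↔ ∀ i ≤ j,
    Λ.lab (walk (Λ.mv ω) v cs i) (cs i) = Λ.lab (walk (Λ.mv ω) v' cs' i) (cs' i) := by
  simp [ev]

theorem ev_comm (v : B × S × Z) (cs : ℕ → K) (v' : B × S × Z) (cs' : ℕ → K) (j : ℕ) :
    Λ.ev v cs v' cs' j = Λ.ev v' cs' v cs j := by
  ext ω
  simp only [mem_ev, eq_comm]

theorem fresh {v : B × S × Z} {cs : ℕ → K} {v' : B × S × Z} {cs' : ℕ → K} {j : ℕ}
    (hc : cs j ≠ cs (j + 1)) (h1 : ∀ i < j, Λ.e v cs i ≠ Λ.e v cs j)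
    (h2 : ∀ i ≤ j, Λ.e v' cs' i ≠ Λ.e v cs j) :
    (Λ.ev v cs v' cs' (j + 1)).card * Fintype.card Z ≤ (Λ.ev v cs v' cs' j).card := by
  rw [← Finset.card_univ, ← Finset.card_product]
  set ε := Λ.e v cs j with hε
  have agree : ∀ ω ω' : B × K → Z, (∀ a, a ≠ ε → ω a = ω' a) →
      (∀ i ≤ j, walk (Λ.mv ω) v cs i = walk (Λ.mv ω') v cs i) ∧
      (∀ i ≤ j + 1, walk (Λ.mv ω) v' cs' i = walk (Λ.mv ω') v' cs' i) := fun ω ω' h =>
    ⟨fun i hi => Λ.walk_congr v cs i (fun k hk => h _ (h1 k (by omega))),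
      fun i hi => Λ.walk_congr v' cs' i (fun k hk => h _ (h2 k (by omega)))⟩
  refine Finset.card_le_card_of_injOn (fun p => Function.update p.1 ε (p.1 ε + p.2)) ?_ ?_
  · rintro ⟨ω, z⟩ hp
    have hp' := Λ.mem_ev.1 (Finset.mem_product.1 (Finset.mem_coe.1 hp)).1
    obtain ⟨a1, a2⟩ := agree (Function.update ω ε (ω ε + z)) ω
      (fun a ha => Function.update_of_ne ha _ _)
    refine Finset.mem_coe.2 (Λ.mem_ev.2 (fun i hi => ?_))
    rw [a1 i hi, a2 i (by omega)]
    exact hp' i (by omega)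
  · rintro ⟨ω, z⟩ hp ⟨ω', z'⟩ hq h
    have hp' := Λ.mem_ev.1 (Finset.mem_product.1 (Finset.mem_coe.1 hp)).1 (j + 1) le_rfl
    have hq' := Λ.mem_ev.1 (Finset.mem_product.1 (Finset.mem_coe.1 hq)).1 (j + 1) le_rfl
    have off : ∀ a, a ≠ ε → ω a = ω' a := fun a ha => by
      simpa [Function.update_of_ne ha] using congrFun h a
    obtain ⟨a1, a2⟩ := agree ω ω' off
    simp only at hp' hq'
    rw [a2 _ le_rfl, ← hq'] at hp'
    simp only [walk] at hp'
    rw [lab_step, lab_step, a1 j le_rfl, Λ.walk_fst ω'] at hp'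
    have h3 : ω ε = ω' ε := add_left_cancel (Λ.dir_cancel hc (add_left_cancel hp'))
    have h4 : ω = ω' := funext fun a => by
      by_cases ha : a = ε
      · rw [ha, h3]
      · exact off a ha
    subst h4
    have h5 : z = z' := by simpa using congrFun h ε
    rw [h5]

theorem no_twice {v : B × S × Z} {cs : ℕ → K} {v' : B × S × Z} {cs' : ℕ → K} {j : ℕ}
    (hne : v ≠ v') (hs : Λ.side v.1 = Λ.side v'.1) (hc : cs j ≠ cs (j + 1))
    (h1 : Λ.e v cs j = Λ.e v' cs' j) (h2 : Λ.e v cs (j + 1) = Λ.e v' cs' (j + 1))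
    {ω : B × K → Z} (hω : ω ∈ Λ.ev v cs v' cs' (j + 1)) : False := by
  have hω' := Λ.mem_ev.1 hω
  refine hne (Λ.back ω (j + 1) (fun i hi => hω' i hi.le) ?_)
  obtain ⟨c1, -⟩ := Λ.key_eq h1
  obtain ⟨c2, hx⟩ := Λ.key_eq h2
  have hx' := hx.resolve_right (fun h => h.2 (Λ.side_walk hs cs cs' (j + 1)))
  have l1 := hω' j (by omega)
  have l2 := hω' (j + 1) le_rfl
  have l3 := l2
  simp only [walk] at l3
  rw [lab_step, lab_step, l1, ← c1, ← c2] at l3
  have z : (walk (Λ.mv ω) v cs (j + 1)).2.2 = (walk (Λ.mv ω) v' cs' (j + 1)).2.2 := by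
    have := Λ.dir_cancel hc (add_left_cancel l3)
    simp only [walk, mv, ← c1]
    exact this
  refine Prod.ext (by rw [walk_fst, walk_fst, hx']) (Prod.ext ?_ z)
  unfold lab at l2
  rw [z, c2] at l2
  exact add_right_cancel l2

theorem bound {v : B × S × Z} {cs : ℕ → K} {v' : B × S × Z} {cs' : ℕ → K} {r F : ℕ}
    (hne : v ≠ v') (hs : Λ.side v.1 = Λ.side v'.1) (hc : ∀ j < r, cs j ≠ cs (j + 1))
    (hc' : ∀ j < r, cs' j ≠ cs' (j + 1)) (hr : r < Λ.g) (hF : 4 * F ≤ r) :
    (Λ.ev v cs v' cs' r).card * Fintype.card Z ^ F ≤ Fintype.card (B × K → Z) := by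
  rcases (Λ.ev v cs v' cs' r).eq_empty_or_nonempty with h0 | ⟨ω, hω⟩
  · simp [h0]
  have mono : ∀ j, Λ.ev v cs v' cs' (j + 1) ⊆ Λ.ev v cs v' cs' j := fun j ω h =>
    Λ.mem_ev.2 fun i hi => Λ.mem_ev.1 h i (by omega)
  let E : ℕ → Finset (B × K) := fun j =>
    (Finset.range j).image (Λ.e v cs) ∪ (Finset.range j).image (Λ.e v' cs')
  have hE : ∀ j, E (j + 1) = insert (Λ.e v cs j) (insert (Λ.e v' cs' j) (E j)) := by
    intro j
    simp only [E, Finset.range_add_one, Finset.image_insert]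
    ext a
    simp only [Finset.mem_union, Finset.mem_insert]
    tauto
  have nm : ∀ j a, a ∉ E j → (∀ i < j, Λ.e v cs i ≠ a) ∧ (∀ i < j, Λ.e v' cs' i ≠ a) := by
    intro j a ha
    simp only [E, Finset.mem_union, Finset.mem_image, Finset.mem_range, not_or, not_exists,
      not_and] at ha
    exact ha
  have inv : ∀ j ≤ r, ∃ f, (Λ.ev v cs v' cs' j).card * Fintype.card Z ^ f ≤
      Fintype.card (B × K → Z) ∧ 2 * (E j).card ≤ 4 * f + j + 1 ∧
      ((∀ i, j = i + 1 → Λ.e v cs i ≠ Λ.e v' cs' i) → 2 * (E j).card ≤ 4 * f + j) := by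
    intro j
    induction j with
    | zero =>
      exact fun _ => ⟨0, by rw [pow_zero, mul_one]; exact Finset.card_le_univ _, by simp [E],
        by simp [E]⟩
    | succ j ih =>
      intro hj
      obtain ⟨f, h1, h2, h3⟩ := ih (by omega)
      have h1' : (Λ.ev v cs v' cs' (j + 1)).card * Fintype.card Z ^ f ≤
          Fintype.card (B × K → Z) :=
        (Nat.mul_le_mul_right _ (Finset.card_le_card (mono j))).trans h1
      by_cases hD : Λ.e v cs j = Λ.e v' cs' j
      · have h4 := h3 (by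
          rintro i rfl hi
          exact Λ.no_twice hne hs (hc i (by omega)) hi hD
            (Λ.mem_ev.2 fun k hk => Λ.mem_ev.1 hω k (by omega)))
        have h5 : (E (j + 1)).card ≤ (E j).card + 1 := by
          rw [hE, hD, Finset.insert_idem]
          exact Finset.card_insert_le _ _
        exact ⟨f, h1', by omega, fun h => absurd hD (h j rfl)⟩
      have h5 : (E (j + 1)).card ≤ (E j).card + 2 := by
        rw [hE]
        exact (Finset.card_insert_le _ _).trans (Nat.succ_le_succ (Finset.card_insert_le _ _))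
      have step : (Λ.ev v cs v' cs' (j + 1)).card * Fintype.card Z ≤
          (Λ.ev v cs v' cs' j).card → (Λ.ev v cs v' cs' (j + 1)).card * Fintype.card Z ^ (f + 1) ≤
          Fintype.card (B × K → Z) := fun h => by
        rw [pow_succ', ← mul_assoc]
        exact (Nat.mul_le_mul_right _ h).trans h1
      by_cases ha : Λ.e v cs j ∈ E j
      · by_cases hb : Λ.e v' cs' j ∈ E j
        · have h6 : E (j + 1) = E j := by
            rw [hE, Finset.insert_eq_of_mem hb, Finset.insert_eq_of_mem ha]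
          exact ⟨f, h1', by rw [h6]; omega, fun _ => by rw [h6]; omega⟩
        · obtain ⟨n1, n2⟩ := nm j _ hb
          have := Λ.fresh (hc' j (by omega)) n2 (fun i hi => by
            rcases hi.lt_or_eq with hi | rfl
            · exact n1 i hi
            · exact hD)
          rw [Λ.ev_comm v' cs', Λ.ev_comm v' cs'] at this
          exact ⟨f + 1, step this, by omega, fun _ => by omega⟩
      · obtain ⟨n1, n2⟩ := nm j _ ha
        have := Λ.fresh (hc j (by omega)) n1 (fun i hi => by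
          rcases hi.lt_or_eq with hi | rfl
          · exact n2 i hi
          · exact Ne.symm hD)
        exact ⟨f + 1, step this, by omega, fun _ => by omega⟩
  obtain ⟨f, h1, h2, -⟩ := inv r le_rfl
  have h3 : r ≤ (E r).card := by
    refine le_trans (le_of_eq ?_) (Finset.card_le_card Finset.subset_union_left)
    rw [Finset.card_image_of_injOn, Finset.card_range]
    intro a ha b hb hab
    have ha' : a < r := by simpa using ha
    have hb' : b < r := by simpa using hb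
    rcases lt_trichotomy a b with h | h | h
    · exact absurd hab (Λ.e_ne hc hr h hb')
    · exact h
    · exact absurd hab.symm (Λ.e_ne hc hr h ha')
  refine le_trans (Nat.mul_le_mul_left _ (Nat.pow_le_pow_right Fintype.card_pos ?_)) h1
  omega

theorem exists_good [Fintype S] {r F : ℕ} (hr : r < Λ.g) (hF : 4 * F ≤ r)
    (hcount : (Fintype.card (B × S × Z) * Fintype.card K ^ (r + 1)) ^ 2 < Fintype.card Z ^ F) :
    ∃ ω : B × K → Z, ∀ v v' (cs cs' : ℕ → K), (∀ j, j < r → cs j ≠ cs (j + 1)) →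
      (∀ j, j < r → cs' j ≠ cs' (j + 1)) → Λ.side v.1 = Λ.side v'.1 →
      (∀ j ≤ r, Λ.lab (walk (Λ.mv ω) v cs j) (cs j) = Λ.lab (walk (Λ.mv ω) v' cs' j) (cs' j)) →
      v = v' := by
  by_contra hcon
  push Not at hcon
  let ext : (Fin (r + 1) → K) → ℕ → K := fun d j => if h : j < r + 1 then d ⟨j, h⟩ else 0
  let I := ((B × S × Z) × (Fin (r + 1) → K)) × ((B × S × Z) × (Fin (r + 1) → K))
  let good : I → Prop := fun a => a.1.1 ≠ a.2.1 ∧ Λ.side a.1.1.1 = Λ.side a.2.1.1 ∧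
    (∀ j < r, ext a.1.2 j ≠ ext a.1.2 (j + 1)) ∧ (∀ j < r, ext a.2.2 j ≠ ext a.2.2 (j + 1))
  let T : I → Finset (B × K → Z) := fun a => Λ.ev a.1.1 (ext a.1.2) a.2.1 (ext a.2.2) r
  have hext : ∀ cs : ℕ → K, ∀ j ≤ r, ext (fun i => cs i) j = cs j := fun cs j hj => by
    simp only [ext]
    rw [dif_pos (by omega)]
  have hwalk : ∀ (ω : B × K → Z) v (cs : ℕ → K), ∀ j ≤ r,
      walk (Λ.mv ω) v (ext (fun i => cs i)) j = walk (Λ.mv ω) v cs j := by
    intro ω v cs j
    induction j with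
    | zero => exact fun _ => rfl
    | succ j ih => exact fun hj => by simp only [walk, ih (by omega), hext cs j (by omega)]
  have cover : (Finset.univ : Finset (B × K → Z)) ⊆ (Finset.univ.filter good).biUnion T := by
    intro ω _
    obtain ⟨v, v', cs, cs', h1, h2, h3, h4, h5⟩ := hcon ω
    refine Finset.mem_biUnion.2 ⟨((v, fun i => cs i), (v', fun i => cs' i)),
      Finset.mem_filter.2 ⟨Finset.mem_univ _, h5, h3, fun j hj => ?_, fun j hj => ?_⟩,
      Λ.mem_ev.2 fun j hj => ?_⟩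
    · simp only
      rw [hext cs j (by omega), hext cs (j + 1) (by omega)]
      exact h1 j hj
    · simp only
      rw [hext cs' j (by omega), hext cs' (j + 1) (by omega)]
      exact h2 j hj
    · simp only
      rw [hwalk ω v cs j hj, hwalk ω v' cs' j hj, hext cs j hj, hext cs' j hj]
      exact h4 j hj
  have h1 := (Finset.card_le_card cover).trans Finset.card_biUnion_le
  have h2 := Nat.mul_le_mul_right (Fintype.card Z ^ F) h1
  rw [Finset.sum_mul, Finset.card_univ] at h2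
  have h3 := h2.trans (Finset.sum_le_card_nsmul _ _ (Fintype.card (B × K → Z)) (fun a ha => by
    obtain ⟨a1, a2, a3, a4⟩ := (Finset.mem_filter.1 ha).2
    exact Λ.bound a1 a2 a3 a4 hr hF))
  have h4 : (Finset.univ.filter good).card < Fintype.card Z ^ F := by
    refine lt_of_le_of_lt ((Finset.card_le_univ _).trans (le_of_eq ?_)) hcount
    simp only [I, Fintype.card_prod, Fintype.card_pi, Finset.prod_const, Finset.card_univ,
      Fintype.card_fin]
    ring
  rw [smul_eq_mul, mul_comm] at h3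
  exact absurd (Nat.le_of_mul_le_mul_right h3 Fintype.card_pos) (not_le.2 h4)

end Lift

end Vale.Agent.P186
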