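import Mathlib

/-! The span over the field with two elements of the indicators of affine lines over a large
field of characteristic two has small dimension. -/

namespace Vale.Agent.P186

open Polynomial

variable {K : Type} [Field K] [Fintype K]

theorem sum_eval_zero (p : K[X]) (h : p.natDegree < Fintype.card K - 1) : ∑ c, p.eval c = 0 := by
  simp only [eval_eq_sum_range]
  rw [Finset.sum_comm]
  refine Finset.sum_eq_zero fun i hi => ?_
  rw [← Finset.mul_sum, FiniteField.sum_pow_lt_card_sub_one K i
    (by have := Finset.mem_range.1 hi; omega), mul_zero]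

theorem line_sum [CharP K 2] {e w M B : ℕ} (hB : B = 2 ^ e) (hq : Fintype.card K = B ^ w)
    (hM : M < B) (hM0 : 0 < M) (d : Fin M → ℕ) (hd : ∀ i, d i < B ^ w) {k : ℕ} (hk : k < w)
    (h0 : ∀ i, d i / B ^ k % B = 0) (a b : Fin M → K) :
    ∑ c : K, ∏ i, (a i + c * b i) ^ d i = 0 := by
  obtain ⟨n, rfl⟩ : ∃ n, w = n + k + 1 := ⟨w - 1 - k, by omega⟩
  have hB0 : 0 < B := by omega
  let D : Fin M → ℕ := fun i => d i % B ^ k * B ^ n + d i / B ^ (k + 1)
  have hD : ∀ i, D i + 1 ≤ B ^ (n + k) := by
    intro i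
    have h1 : d i % B ^ k + 1 ≤ B ^ k := Nat.mod_lt _ (pow_pos hB0 _)
    have h2 : d i / B ^ (k + 1) + 1 ≤ B ^ n := by
      refine (Nat.div_lt_iff_lt_mul (pow_pos hB0 _)).2 ?_
      rw [← pow_add]
      exact hd i
    calc D i + 1 ≤ (d i % B ^ k + 1) * B ^ n := by simp only [D]; nlinarith
      _ ≤ B ^ k * B ^ n := Nat.mul_le_mul_right _ h1
      _ = B ^ (n + k) := by ring
  have hx : ∀ (x : K) i, (x ^ d i) ^ B ^ n = x ^ D i := by
    intro x i
    have h1 := Nat.mod_add_div (d i) (B ^ k)
    have h2 := Nat.mod_add_div (d i / B ^ k) B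
    rw [h0 i, zero_add, Nat.div_div_eq_div_mul, ← pow_succ] at h2
    have h3 : d i * B ^ n = d i % B ^ k * B ^ n + B ^ (n + k + 1) * (d i / B ^ (k + 1)) := by
      conv_lhs => rw [← h1, ← h2]
      ring
    rw [← pow_mul, h3, pow_add, pow_mul x (B ^ (n + k + 1)), ← hq, FiniteField.pow_card,
      ← pow_add]
  have : Fact (Nat.Prime 2) := ⟨Nat.prime_two⟩
  apply (iterateFrobenius K 2 (e * n)).injective
  rw [map_zero, map_sum]
  have h1 := sum_eval_zero (∏ i, (C (a i) + X * C (b i)) ^ D i) (by
    have h2 : (∏ i, (C (a i) + X * C (b i)) ^ D i).natDegree ≤ ∑ i, D i := by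
      refine (natDegree_prod_le _ _).trans (Finset.sum_le_sum fun i _ => ?_)
      refine natDegree_pow_le.trans ?_
      have : (C (a i) + X * C (b i)).natDegree ≤ 1 := by compute_degree
      exact (Nat.mul_le_mul_left _ this).trans (by omega)
    have h3 : ∑ i, (D i + 1) ≤ ∑ _i : Fin M, B ^ (n + k) := Finset.sum_le_sum fun i _ => hD i
    simp only [Finset.sum_add_distrib, Finset.sum_const, Finset.card_univ, Fintype.card_fin,
      smul_eq_mul, mul_one] at h3
    have h4 : (M + 1) * B ^ (n + k) ≤ B * B ^ (n + k) := Nat.mul_le_mul_right _ hM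
    have h5 : 0 < B ^ (n + k) := pow_pos hB0 _
    rw [hq, pow_succ']
    rw [add_mul, one_mul] at h4
    omega)
  rw [← h1]
  refine Finset.sum_congr rfl fun c _ => ?_
  rw [map_prod, eval_prod]
  refine Finset.prod_congr rfl fun i _ => ?_
  rw [iterateFrobenius_def, pow_mul 2 e n, ← hB, hx]
  simp only [eval_pow, eval_add, eval_mul, eval_C, eval_X]

theorem exists_delta [DecidableEq K] {q : ℕ} (hq : Fintype.card K = q) :
    ∃ cf : K → Fin q → K, ∀ x y : K, (if x = y then (1 : K) else 0) = ∑ k, cf y k * x ^ (k : ℕ) := by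
  subst hq
  refine ⟨fun y k => (1 - (X - C y) ^ (Fintype.card K - 1)).coeff k, fun x y => ?_⟩
  have h1 : 1 < Fintype.card K := Fintype.one_lt_card
  have h2 : (1 - (X - C y) ^ (Fintype.card K - 1)).natDegree < Fintype.card K := by
    refine lt_of_le_of_lt (natDegree_sub_le _ _) ?_
    rw [natDegree_one, natDegree_pow, natDegree_X_sub_C]
    omega
  beta_reduce
  rw [Fin.sum_univ_eq_sum_range
    (fun k => (1 - (X - C y) ^ (Fintype.card K - 1) : K[X]).coeff k * x ^ k),
    ← eval_eq_sum_range' h2]
  simp only [eval_sub, eval_one, eval_pow, eval_X, eval_C]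
  split_ifs with h
  · rw [h, sub_self, zero_pow (by omega), sub_zero]
  · rw [FiniteField.pow_card_sub_one_eq_one _ (sub_ne_zero.2 h), sub_self]

theorem exists_rank [DecidableEq K] [CharP K 2] {e w M B : ℕ} (hB : B = 2 ^ e)
    (hq : Fintype.card K = B ^ w) (hM : M < B) (hM0 : 0 < M)
    (hw : 4 * (B ^ M - 1) ^ w < (B ^ M) ^ w) :
    ∃ (u : ℕ) (μ : Fin u → (Fin M → K) → ZMod 2), 4 * u < Fintype.card (Fin M → K) ∧
      ∀ a b : Fin M → K, ∃ l : Fin u → ZMod 2, ∀ t,
        (∑ c : K, if a + c • b = t then (1 : ZMod 2) else 0) = ∑ j, l j * μ j t := by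
  classical
  have : NeZero B := ⟨by omega⟩
  have : Fact (Nat.Prime 2) := ⟨Nat.prime_two⟩
  let := ZMod.algebra K 2
  obtain ⟨cf, hcf⟩ := exists_delta hq
  let ind : (Fin M → K) × (Fin M → K) → (Fin M → K) → ZMod 2 := fun p t =>
    ∑ c : K, if p.1 + c • p.2 = t then (1 : ZMod 2) else 0
  let Bad : Finset (Fin M → Fin (B ^ w)) :=
    Finset.univ.filter fun d => ∀ k < w, ¬ ∀ i, (d i : ℕ) / B ^ k % B = 0
  let G : (Fin M → Fin (B ^ w)) → (Fin M → K) → K := fun d t => ∏ i, cf (t i) (d i)
  have hBad : Bad.card ≤ (B ^ M - 1) ^ w := by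
    have : (B ^ M - 1) ^ w = (Fintype.piFinset fun _ : Fin w =>
        (Finset.univ.erase (0 : Fin M → Fin B))).card := by
      simp [Fintype.card_piFinset, Finset.card_erase_of_mem]
    rw [this]
    refine Finset.card_le_card_of_injOn (fun d k i => finFunctionFinEquiv.symm (d i) k) ?_ ?_
    · intro d hd
      have hd' := (Finset.mem_filter.1 (Finset.mem_coe.1 hd)).2
      refine Finset.mem_coe.2 (Fintype.mem_piFinset.2 fun k => ?_)
      refine Finset.mem_erase.2 ⟨fun h => hd' k k.2 fun i => ?_, Finset.mem_univ _⟩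
      have := congrArg Fin.val (congrFun h i)
      simpa [finFunctionFinEquiv_symm_apply_val] using this
    · intro d _ d' _ h
      exact funext fun i => finFunctionFinEquiv.symm.injective
        (funext fun k => congrFun (congrFun h k) i)
  let W : Submodule K ((Fin M → K) → K) := Submodule.span K (Bad.image G : Set _)
  have hind : ∀ p, algebraMap (ZMod 2) K ∘ ind p ∈ W := by
    intro p
    have e1 : algebraMap (ZMod 2) K ∘ ind p =
        ∑ d, (∑ c : K, ∏ i, (p.1 i + c * p.2 i) ^ (d i : ℕ)) • G d := by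
      funext t
      simp only [Function.comp, ind, map_sum, Finset.sum_apply, Pi.smul_apply, smul_eq_mul,
        Finset.sum_mul, G]
      rw [Finset.sum_comm]
      refine Finset.sum_congr rfl fun c _ => ?_
      have e2 : algebraMap (ZMod 2) K (if p.1 + c • p.2 = t then 1 else 0) =
          ∏ i, if p.1 i + c * p.2 i = t i then (1 : K) else 0 := by
        rw [Finset.prod_ite_zero]
        simp [funext_iff]
      rw [e2]
      simp only [hcf]
      rw [Finset.prod_univ_sum]
      simp only [Fintype.piFinset_univ, Finset.prod_mul_distrib, mul_comm]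
    rw [e1]
    refine Submodule.sum_mem _ fun d _ => ?_
    by_cases hd : d ∈ Bad
    · exact Submodule.smul_mem _ _ (Submodule.subset_span
        (Finset.mem_coe.2 (Finset.mem_image_of_mem G hd)))
    · simp only [Bad, Finset.mem_filter, Finset.mem_univ, true_and, not_forall] at hd
      obtain ⟨k, hk, h0⟩ := hd
      rw [line_sum hB hq hM hM0 (fun i => d i) (fun i => (d i).2) hk (by simpa using h0), zero_smul]
      exact W.zero_mem
  let U : Submodule (ZMod 2) ((Fin M → K) → ZMod 2) := Submodule.span _ (Set.range ind)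
  have hU : ∀ f ∈ U, algebraMap (ZMod 2) K ∘ f ∈ W := by
    intro f hf
    induction hf using Submodule.span_induction with
    | mem x h => obtain ⟨p, rfl⟩ := h; exact hind p
    | zero =>
      have : algebraMap (ZMod 2) K ∘ (0 : (Fin M → K) → ZMod 2) = 0 := by funext t; simp
      rw [this]; exact W.zero_mem
    | add x y _ _ hx hy =>
      have : algebraMap (ZMod 2) K ∘ (x + y) =
          algebraMap (ZMod 2) K ∘ x + algebraMap (ZMod 2) K ∘ y := by funext t; simp
      rw [this]; exact W.add_mem hx hy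
    | smul a x _ hx =>
      have : algebraMap (ZMod 2) K ∘ (a • x) =
          algebraMap (ZMod 2) K a • (algebraMap (ZMod 2) K ∘ x) := by funext t; simp
      rw [this]; exact W.smul_mem _ hx
  let β := Module.finBasis (ZMod 2) U
  refine ⟨_, fun j => (β j : (Fin M → K) → ZMod 2), ?_, fun a b => ?_⟩
  · have h1 : LinearIndependent (ZMod 2) fun j => (β j : (Fin M → K) → ZMod 2) :=
      β.linearIndependent.map' U.subtype U.ker_subtype
    have h2 := (linearIndependent_algebraMap_comp_iff (S := K)).2 h1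
    have h3 := linearIndependent_le_span_aux' _ h2 (Bad.image G : Set _) (by
      rintro _ ⟨j, rfl⟩
      exact hU _ (β j).2)
    simp only [Fintype.card_fin, Finset.coe_sort_coe, Fintype.card_coe] at h3
    have h4 := h3.trans (Finset.card_image_le.trans hBad)
    rw [Fintype.card_pi, Finset.prod_const, Finset.card_univ, Fintype.card_fin, hq, ← pow_mul,
      mul_comm w M, pow_mul]
    omega
  · let x : U := ⟨ind (a, b), Submodule.subset_span ⟨_, rfl⟩⟩
    refine ⟨β.repr x, fun t => ?_⟩
    have := congrFun (congrArg Subtype.val (β.sum_repr x)) t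
    simp only [Submodule.coe_sum, Finset.sum_apply, Submodule.coe_smul, Pi.smul_apply,
      smul_eq_mul] at this
    exact this.symm

end Vale.Agent.P186
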