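import Vale.Agent.P186.Base
import Vale.Agent.P186.Random
import Vale.Agent.P186.Rank

/-! Existence of a configuration. -/

namespace Vale.Agent.P186

theorem exists_exponent (n : ℕ) (hn : 0 < n) : ∃ w, w ≠ 0 ∧ 4 * (n - 1) ^ w < n ^ w := by
  have h0 : (0 : ℝ) < n := by exact_mod_cast hn
  obtain ⟨w, hw⟩ := exists_pow_lt_of_lt_one (x := (1 / 4 : ℝ)) (y := ((n - 1 : ℕ) : ℝ) / n)
    (by norm_num) ((div_lt_one h0).2 (by exact_mod_cast Nat.sub_lt hn one_pos))
  refine ⟨w, ?_, ?_⟩
  · rintro rfl
    norm_num at hw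
  · rw [div_pow, div_lt_div_iff₀ (pow_pos h0 w) (by norm_num), one_mul, mul_comm] at hw
    exact_mod_cast hw

theorem exists_config_aux (e m F r g : ℕ) (hM : m + 1 < 2 ^ e) (he : e ≠ 0) (hF : 4 * F ≤ r)
    (hg : 10 * r + 10 < g) (hc : (m + 1 + (4 * g + 1) + (m + 1 + m) + (r + 1)) * 2 < m * F) :
    ∃ (S K V : Type) (_ : Fintype S) (_ : DecidableEq S) (_ : Fintype K) (_ : Fintype V),
      Nonempty (Config S K V) := by
  classical
  obtain ⟨w, hw0, hw⟩ := exists_exponent ((2 ^ e) ^ (m + 1)) (by positivity)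
  have : Fact (Nat.Prime 2) := ⟨Nat.prime_two⟩
  let K := GaloisField 2 (e * w)
  let : Fintype K := Fintype.ofFinite K
  have hq : Fintype.card K = (2 ^ e) ^ w := by
    rw [← Nat.card_eq_fintype_card, GaloisField.card 2 (e * w) (Nat.mul_ne_zero he hw0), pow_mul]
  obtain ⟨u, μ, hu, hμ⟩ := exists_rank (K := K) rfl hq hM (Nat.succ_pos m) hw
  obtain ⟨H, _, st, h0, hst, hgirth, hH⟩ := exists_base K g
  let S := Fin (m + 1) → K
  let Z := Fin m → K
  let bmv : S × H × Bool → K → S × H × Bool := fun x c => (x.1, st x.2.1 c, !x.2.2)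
  have hb : ∀ x (cs : ℕ → K) n, (walk bmv x cs n).2.1 = walk st x.2.1 cs n := by
    intro x cs n
    induction n with
    | zero => rfl
    | succ n ih => exact congrArg (fun y => st y (cs n)) ih
  let Λ : Lift K S Z (S × H × Bool) :=
    { dir := fun z => Fin.cons 1 z
      bmv := bmv
      side := fun x => x.2.2
      g := g
      dir_inj := fun z z' h => funext fun i => congrFun h i.succ
      dir_ne := fun z h => one_ne_zero (congrFun h 0)
      two := fun z => funext fun i => CharTwo.add_self_eq_zero (z i)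
      bmv_bmv := fun x c => by simp [bmv, hst]
      side_bmv := fun x c => rfl
      girth := fun x cs n h1 h2 h3 => hgirth x.2.1 cs n h1 h2 (by rw [← hb, h3]) }
  have h2 : 1 < Fintype.card K := Fintype.one_lt_card
  obtain ⟨ω, hω⟩ := Λ.exists_good (r := r) (F := F) (by show r < g; omega) hF (by
    simp only [S, Z, Fintype.card_prod, Fintype.card_pi, Finset.prod_const, Finset.card_univ,
      Fintype.card_fin, Fintype.card_bool]
    generalize Fintype.card K = q at h2 hH
    have h3 : Fintype.card H * 2 ≤ q ^ (4 * g + 1) := by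
      rw [pow_succ]
      exact Nat.mul_le_mul hH h2
    calc _ ≤ (q ^ (m + 1) * q ^ (4 * g + 1) * (q ^ (m + 1) * q ^ m) * q ^ (r + 1)) ^ 2 := by
          gcongr
      _ = q ^ ((m + 1 + (4 * g + 1) + (m + 1 + m) + (r + 1)) * 2) := by
          simp only [← pow_add, ← pow_mul]
      _ < (q ^ m) ^ F := by
          rw [← pow_mul]
          exact Nat.pow_lt_pow_right h2 hc)
  refine ⟨S, K, (S × H × Bool) × S × Z, inferInstance, inferInstance, inferInstance,
    inferInstance, ⟨
    { mv := Λ.mv ω
      lab := Λ.lab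
      side := fun v => v.1.2.2
      copy := fun v => v.1.1
      mv_mv := Λ.mv_mv ω
      lab_mv := Λ.lab_mv ω
      side_mv := fun v c => rfl
      copy_mv := fun v c => rfl
      lab_inj := Λ.lab_inj
      r := r
      g := g
      girth := fun v cs n h1 h2 h3 => Λ.girth v.1 cs n h1 h2 (by rw [← Λ.walk_fst ω, h3])
      piece := hω
      big := hg
      sp := fun i => ((i, h0, false), i, 0)
      c0 := 0
      sp_copy := fun i => rfl
      sp_side := fun i => rfl
      sp_lab := fun i => by simp [Lift.lab]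
      u := u
      μ := μ
      span := fun v => hμ v.2.1 (Λ.dir v.2.2)
      small := hu }⟩⟩

theorem exists_config : ∃ (S K V : Type) (_ : Fintype S) (_ : DecidableEq S) (_ : Fintype K)
    (_ : Fintype V), Nonempty (Config S K V) :=
  exists_config_aux 9 500 20 80 811 (by norm_num) (by norm_num) (by norm_num) (by norm_num)
    (by norm_num)

end Vale.Agent.P186
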