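import Vale.Agent.P186.Mill
import Vale.Agent.P186.FreeTree

/-! Folded labelled graphs with weights in a commutative group, and the small cancellation
family on the Cayley tree of the free group that they define. -/

namespace Vale.Agent.P186

open FreeGroup

/-- Reading a word along a labelled graph, recording the total weight. -/
inductive Rd {S V C : Type*} [CommGroup C] (Ed : V → S × Bool → V → C → Prop) :
    V → List (S × Bool) → V → C → Prop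
  | nil (v : V) : Rd Ed v [] v 1
  | cons {v v₁ v' : V} {l : S × Bool} {L : List (S × Bool)} {k₁ k : C} :
      Ed v l v₁ k₁ → Rd Ed v₁ L v' k → Rd Ed v (l :: L) v' (k₁ * k)

/-- A folded labelled weighted graph with large girth and short pieces. -/
structure LGraph (S V C : Type*) [CommGroup C] where
  Ed : V → S × Bool → V → C → Prop
  func : ∀ v l v₁ k₁ v₂ k₂, Ed v l v₁ k₁ → Ed v l v₂ k₂ → v₁ = v₂ ∧ k₁ = k₂
  symm : ∀ v l v' k, Ed v l v' k → Ed v' (l.1, !l.2) v k⁻¹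
  r : ℕ
  g : ℕ
  girth : ∀ v L k, Rd Ed v L v k → IsReduced L → L ≠ [] → g ≤ L.length
  piece : ∀ v w k v' w' k' L, Rd Ed v L w k → Rd Ed v' L w' k' → IsReduced L → r < L.length →
    v = v'
  big : 10 * r + 10 < g

variable {S V C : Type*} [CommGroup C]

theorem Rd.append {Ed : V → S × Bool → V → C → Prop} {v v₁ v₂ : V} {L₁ L₂ : List (S × Bool)}
    {k₁ k₂ : C} (h₁ : Rd Ed v L₁ v₁ k₁) (h₂ : Rd Ed v₁ L₂ v₂ k₂) :
    Rd Ed v (L₁ ++ L₂) v₂ (k₁ * k₂) := by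
  induction h₁ with
  | nil v => simpa using h₂
  | cons h _ ih => rw [mul_assoc]; exact Rd.cons h (ih h₂)

theorem Rd.cons_inv {Ed : V → S × Bool → V → C → Prop} {v v' : V} {l : S × Bool}
    {L : List (S × Bool)} {k : C} (h : Rd Ed v (l :: L) v' k) :
    ∃ v₁ k₁ k₂, Ed v l v₁ k₁ ∧ Rd Ed v₁ L v' k₂ ∧ k = k₁ * k₂ := by
  cases h with
  | cons h1 h2 => exact ⟨_, _, _, h1, h2, rfl⟩

theorem Rd.nil_inv {Ed : V → S × Bool → V → C → Prop} {v v' : V} {k : C}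
    (h : Rd Ed v [] v' k) : v = v' ∧ k = 1 := by
  cases h with
  | nil => exact ⟨rfl, rfl⟩

theorem Rd.split {Ed : V → S × Bool → V → C → Prop} {L₂ : List (S × Bool)} {v₂ : V} :
    ∀ {L₁ : List (S × Bool)} {v : V} {k : C}, Rd Ed v (L₁ ++ L₂) v₂ k →
      ∃ v₁ k₁ k₂, Rd Ed v L₁ v₁ k₁ ∧ Rd Ed v₁ L₂ v₂ k₂ ∧ k = k₁ * k₂
  | [], v, k, h => ⟨v, 1, k, Rd.nil v, h, by simp⟩
  | l :: L₁, v, k, h => by
    obtain ⟨w, a, b, h1, h2, rfl⟩ := Rd.cons_inv (L := L₁ ++ L₂) h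
    obtain ⟨v₁, k₁, k₂, h3, h4, rfl⟩ := Rd.split h2
    exact ⟨v₁, a * k₁, k₂, Rd.cons h1 h3, h4, (mul_assoc _ _ _).symm⟩

namespace LGraph

variable (Γ : LGraph S V C)

theorem rd_func {L : List (S × Bool)} {v v₁ v₂ : V} {k₁ k₂ : C} (h₁ : Rd Γ.Ed v L v₁ k₁)
    (h₂ : Rd Γ.Ed v L v₂ k₂) : v₁ = v₂ ∧ k₁ = k₂ := by
  induction h₁ generalizing k₂ with
  | nil v => obtain ⟨rfl, rfl⟩ := h₂.nil_inv; exact ⟨rfl, rfl⟩
  | cons h _ ih =>
    obtain ⟨w, a, b, h1, h2, rfl⟩ := h₂.cons_inv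
    obtain ⟨rfl, rfl⟩ := Γ.func _ _ _ _ _ _ h h1
    obtain ⟨rfl, rfl⟩ := ih h2
    exact ⟨rfl, rfl⟩

theorem rd_inv {L : List (S × Bool)} {v v' : V} {k : C} (h : Rd Γ.Ed v L v' k) :
    Rd Γ.Ed v' (invRev L) v k⁻¹ := by
  induction h with
  | nil v => simpa using Rd.nil v
  | @cons v v₁ v' l L k₁ k h _ ih =>
    rw [invRev_cons, mul_inv_rev]
    refine ih.append ?_
    have : invRev [l] = [(l.1, !l.2)] := by simp [invRev]
    rw [this]
    simpa using Rd.cons (Γ.symm _ _ _ _ h) (Rd.nil v)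

theorem rd_red {L L' : List (S × Bool)} (hr : Red L L') {v v' : V} {k : C}
    (h : Rd Γ.Ed v L v' k) : Rd Γ.Ed v L' v' k := by
  induction hr with
  | refl => exact h
  | tail _ hs ih =>
    cases hs with
    | @not L₁ L₂ x b =>
      obtain ⟨v₁, k₁, k₂, h1, h2, rfl⟩ := ih.split
      obtain ⟨v₂, a, c, h3, h4, rfl⟩ := h2.cons_inv
      obtain ⟨v₃, a', c', h5, h6, rfl⟩ := h4.cons_inv
      obtain ⟨rfl, rfl⟩ := Γ.func _ _ _ _ _ _ h5 (Γ.symm _ _ _ _ h3)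
      simpa using h1.append h6

variable [DecidableEq S]

/-- The reduced word of `w` can be read from `v` to `v'` with weight `k`. -/
def Rel (v : V) (w : FreeGroup S) (v' : V) (k : C) : Prop := Rd Γ.Ed v w.toWord v' k

theorem rel_mk {L : List (S × Bool)} {v v' : V} {k : C} (h : Rd Γ.Ed v L v' k) :
    Γ.Rel v (FreeGroup.mk L) v' k := Γ.rd_red reduce.red h

theorem rel_one (v : V) : Γ.Rel v 1 v 1 := Rd.nil v

variable {Γ}

theorem Rel.trans {v v₁ v₂ : V} {w₁ w₂ : FreeGroup S} {k₁ k₂ : C} (h₁ : Γ.Rel v w₁ v₁ k₁)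
    (h₂ : Γ.Rel v₁ w₂ v₂ k₂) : Γ.Rel v (w₁ * w₂) v₂ (k₁ * k₂) := by
  have := Γ.rel_mk (Rd.append h₁ h₂)
  rwa [← mul_mk, mk_toWord, mk_toWord] at this

theorem Rel.symm {v v' : V} {w : FreeGroup S} {k : C} (h : Γ.Rel v w v' k) :
    Γ.Rel v' w⁻¹ v k⁻¹ := by
  unfold Rel
  rw [toWord_inv]
  exact Γ.rd_inv h

theorem Rel.func {v v₁ v₂ : V} {w : FreeGroup S} {k₁ k₂ : C} (h₁ : Γ.Rel v w v₁ k₁)
    (h₂ : Γ.Rel v w v₂ k₂) : v₁ = v₂ ∧ k₁ = k₂ := Γ.rd_func h₁ h₂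

theorem Rel.cast {v v' : V} {w w' : FreeGroup S} {k k' : C} (h : Γ.Rel v w v' k) (hw : w = w')
    (hk : k = k') : Γ.Rel v w' v' k' := hw ▸ hk ▸ h

theorem Rel.init {v v' : V} {w p : FreeGroup S} {k : C} (h : Γ.Rel v w v' k)
    (hp : Btw fd 1 p w) : ∃ v₁ k₁, Γ.Rel v p v₁ k₁ := by
  obtain ⟨B, hB⟩ := btw_one_iff.1 hp
  unfold Rel at h
  rw [hB] at h
  obtain ⟨v₁, k₁, -, h1, -⟩ := h.split
  exact ⟨v₁, k₁, h1⟩

variable (Γ)

/-- Two pointed positions belong to the same copy of the graph. -/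
def cellSetoid : Setoid (FreeGroup S × V) where
  r a b := ∃ k, Γ.Rel a.2 (a.1⁻¹ * b.1) b.2 k
  iseqv := ⟨fun a => ⟨1, by simpa using Γ.rel_one a.2⟩,
    fun ⟨k, h⟩ => ⟨k⁻¹, h.symm.cast (by group) rfl⟩,
    fun ⟨k, h⟩ ⟨k', h'⟩ => ⟨k * k', (h.trans h').cast (by group) rfl⟩⟩

/-- Copies of the graph in the tree. -/
def Cell : Type _ := Quotient Γ.cellSetoid

/-- The cell through a pointed position. -/
def cell (x : FreeGroup S) (v : V) : Γ.Cell := Quotient.mk Γ.cellSetoid (x, v)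

theorem cell_eq {x y : FreeGroup S} {v w : V} :
    Γ.cell x v = Γ.cell y w ↔ ∃ k, Γ.Rel v (x⁻¹ * y) w k := Quotient.eq

theorem cell_surj (c : Γ.Cell) : ∃ x v, Γ.cell x v = c := by
  obtain ⟨⟨x, v⟩, rfl⟩ := Quotient.exists_rep c
  exact ⟨x, v, rfl⟩

instance actT : MulAction (FreeGroup S × C) (FreeGroup S) where
  smul e x := e.1 * x
  one_smul x := one_mul x
  mul_smul a b x := mul_assoc a.1 b.1 x

omit [DecidableEq S] in
theorem smul_T (e : FreeGroup S × C) (x : FreeGroup S) : e • x = e.1 * x := rfl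

instance actC : MulAction (FreeGroup S × C) Γ.Cell where
  smul e := Quotient.map (fun a => (e.1 * a.1, a.2))
    (fun a b ⟨k, h⟩ => ⟨k, h.cast (by simp only; group) rfl⟩)
  one_smul c := by
    obtain ⟨x, v, rfl⟩ := Γ.cell_surj c
    exact congrArg (fun y => Γ.cell y v) (one_mul x)
  mul_smul a b c := by
    obtain ⟨x, v, rfl⟩ := Γ.cell_surj c
    exact congrArg (fun y => Γ.cell y v) (mul_assoc a.1 b.1 x)

theorem smul_cell (e : FreeGroup S × C) (x : FreeGroup S) (v : V) :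
    e • Γ.cell x v = Γ.cell (e.1 * x) v := rfl

/-- The points of a cell. -/
def A (c : Γ.Cell) : Set (FreeGroup S) := {x | ∃ v, Γ.cell x v = c}

/-- The weighted loops of a cell. -/
def H (c : Γ.Cell) : Subgroup (FreeGroup S × C) where
  carrier := {e | ∀ x v, Γ.cell x v = c → Γ.Rel v (x⁻¹ * e.1 * x) v e.2}
  one_mem' := fun x v _ => by simpa using Γ.rel_one v
  mul_mem' := fun {a b} ha hb x v h =>
    ((ha x v h).trans (hb x v h)).cast (by simp only [Prod.fst_mul]; group) rfl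
  inv_mem' := fun {a} ha x v h => (ha x v h).symm.cast (by simp only [Prod.fst_inv]; group) rfl

theorem mem_H {x : FreeGroup S} {v : V} {e : FreeGroup S × C}
    (h : Γ.Rel v (x⁻¹ * e.1 * x) v e.2) : e ∈ Γ.H (Γ.cell x v) := by
  intro y w hy
  obtain ⟨k, hk⟩ := Γ.cell_eq.1 hy
  exact ((hk.trans h).trans hk.symm).cast (by group) (by rw [mul_comm k, mul_inv_cancel_right])

/-- The small cancellation family of the graph. -/
def mill : Mill (FreeGroup S × C) (FreeGroup S) Γ.Cell where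
  d := fd
  tree := fd_tree
  iso := fun e x y => fd_mul e.1 x y
  A := Γ.A
  H := Γ.H
  r := Γ.r
  g := Γ.g
  conv := by
    rintro c x ⟨v, rfl⟩ y ⟨w, hw⟩ z hz
    obtain ⟨k, hk⟩ := Γ.cell_eq.1 hw.symm
    have h1 : Btw fd 1 (x⁻¹ * z) (x⁻¹ * y) := by simpa using (btw_mul x⁻¹).2 hz
    obtain ⟨v₁, k₁, h2⟩ := hk.init h1
    exact ⟨v₁, (Γ.cell_eq.2 ⟨k₁, h2⟩).symm⟩
  ne := fun c => by
    obtain ⟨x, v, h⟩ := Γ.cell_surj c
    exact ⟨x, v, h⟩
  A_eq := by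
    rintro e c x ⟨v, rfl⟩
    exact ⟨v, rfl⟩
  H_eq := by
    intro e c h hh
    obtain ⟨x, v, rfl⟩ := Γ.cell_surj c
    rw [smul_cell]
    refine Γ.mem_H ((hh x v rfl).cast ?_ ?_)
    · simp only [Prod.fst_mul, Prod.fst_inv]; group
    · simp only [Prod.snd_mul, Prod.snd_inv]; rw [mul_comm e.2, mul_inv_cancel_right]
  H_fix := by
    intro c h hh
    obtain ⟨x, v, rfl⟩ := Γ.cell_surj c
    rw [smul_cell]
    exact (Γ.cell_eq.2 ⟨h.2, (hh x v rfl).cast (by group) rfl⟩).symm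
  ovl := by
    rintro c c' hne x y ⟨v, rfl⟩ ⟨v', rfl⟩ ⟨w, hw⟩ ⟨w', hw'⟩
    by_contra hlt
    obtain ⟨k, hk⟩ := Γ.cell_eq.1 hw.symm
    obtain ⟨k', hk'⟩ := Γ.cell_eq.1 hw'.symm
    have := Γ.piece _ _ _ _ _ _ _ hk hk' isReduced_toWord (not_le.1 hlt)
    exact hne (by rw [this])
  transl := by
    rintro c h hh h1 x ⟨v, rfl⟩
    have h2 := hh x v rfl
    have e : fd x (h • x) = (x⁻¹ * h.1 * x).toWord.length := by
      rw [smul_T, mul_assoc]; rfl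
    rw [e]
    refine Γ.girth v _ _ h2 isReduced_toWord (fun h3 => h1 ?_)
    have h4 := toWord_eq_nil_iff.1 h3
    unfold Rel at h2
    rw [h3] at h2
    refine Prod.ext ?_ h2.nil_inv.2
    have : h.1 = x * (x⁻¹ * h.1 * x) * x⁻¹ := by group
    rw [this, h4]; simp
  big := by have := Γ.big; omega

/-- The group generated by all weighted loops. -/
def NN : Subgroup (FreeGroup S × C) := ⨆ c, Γ.H c

theorem H_le_NN (c : Γ.Cell) : Γ.H c ≤ Γ.NN := le_iSup Γ.H c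

instance NN_normal : Γ.NN.Normal := ⟨fun n hn e => by
  refine Subgroup.iSup_induction Γ.H (C := fun n => e * n * e⁻¹ ∈ Γ.NN) hn ?_ ?_ ?_
  · intro c h hh
    exact Γ.H_le_NN _ (Γ.mill.H_eq e c h hh)
  · simp
  · intro a b ha hb
    have : e * (a * b) * e⁻¹ = (e * a * e⁻¹) * (e * b * e⁻¹) := by group
    rw [this]
    exact mul_mem ha hb⟩

theorem loop_mem {v : V} {w : FreeGroup S} {k : C} (h : Γ.Rel v w v k) : (w, k) ∈ Γ.NN :=
  Γ.H_le_NN (Γ.cell 1 v) (Γ.mem_H (by simpa using h))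

theorem short {n : FreeGroup S × C} (hn : n ∈ Γ.NN) (h1 : n ≠ 1) :
    ∃ c p p' h, p ∈ Γ.A c ∧ p' ∈ Γ.A c ∧ h ∈ Γ.H c ∧
      fd 1 p + fd p p' + fd p' n.1 = fd 1 n.1 ∧ fd p (h.1 * p') ≤ 4 * Γ.r + 3 ∧
      Γ.g ≤ fd p p' + (4 * Γ.r + 3) := by
  obtain ⟨c, p, p', h, e⟩ := Γ.mill.short_of_mem 1 hn h1
  refine ⟨c, p, p', h, ?_⟩
  simp only [smul_T, mul_one] at e
  exact e

theorem weight_eq_one {k : C} (h : ((1 : FreeGroup S), k) ∈ Γ.NN) : k = 1 := by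
  by_contra hk
  obtain ⟨c, p, p', h, -, -, -, e1, -, e2⟩ := Γ.short h (fun h => hk (congrArg Prod.snd h))
  have := Γ.big
  have h0 : fd (1 : FreeGroup S) 1 = 0 := fd_tree.self 1
  simp only at e1
  omega

theorem bounded [Finite V] : ∃ D : ℕ, ∀ c, ∀ x ∈ Γ.A c, ∀ y ∈ Γ.A c,
    ∃ h ∈ Γ.H c, fd x (h.1 * y) ≤ D := by
  have : ∀ a : V × V, ∃ n : ℕ, (∃ w k, Γ.Rel a.1 w a.2 k) →
      ∃ w k, Γ.Rel a.1 w a.2 k ∧ fd 1 w ≤ n := by
    intro a
    by_cases h : ∃ w k, Γ.Rel a.1 w a.2 k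
    · obtain ⟨w, k, h⟩ := h
      exact ⟨fd 1 w, fun _ => ⟨w, k, h, le_rfl⟩⟩
    · exact ⟨0, fun h' => absurd h' h⟩
  choose f hf using this
  obtain ⟨D, hD⟩ := (Set.finite_range f).bddAbove
  refine ⟨D, ?_⟩
  rintro c x ⟨v, rfl⟩ y ⟨w, hw⟩
  obtain ⟨k, hk⟩ := Γ.cell_eq.1 hw.symm
  obtain ⟨w0, k0, h0, hl⟩ := hf (v, w) ⟨_, _, hk⟩
  refine ⟨(x * w0 * y⁻¹, k0 * k⁻¹), Γ.mem_H ((h0.trans hk.symm).cast (by simp only; group) rfl),
    ?_⟩
  have e : x * w0 * y⁻¹ * y = x * w0 := by group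
  have e2 := fd_mul x 1 w0
  rw [mul_one] at e2
  simp only [e, e2]
  exact hl.trans (hD ⟨_, rfl⟩)

end LGraph

end Vale.Agent.P186
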