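import Vale.Agent.P186.Tors
import Vale.Agent.P186.Algebra

/-! The graph with the special edges deleted gives a group that is not residually finite. -/

namespace Vale.Agent.P186

open MonoidAlgebra

theorem half_kernel {F : Type} [Group F] [Finite F] (d : MonoidAlgebra (ZMod 2) F) (g : F)
    (hd : d = 0 ∨ ∃ g', g' ≠ g ∧ d = of _ _ g') : ∃ T : Finset F, 2 * T.card ≤ Nat.card F ∧
      ∀ x : MonoidAlgebra (ZMod 2) F, x * (d - of _ _ g) = 0 → (∀ a ∈ T, x.coeff a = 0) →
        x = 0 := by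
  classical
  rcases hd with rfl | ⟨g', hg, rfl⟩
  · refine ⟨∅, by simp, fun x hx _ => ?_⟩
    rw [zero_sub, mul_neg, neg_eq_zero] at hx
    have := congrArg (· * of (ZMod 2) F g⁻¹) hx
    simpa only [mul_assoc, ← map_mul, mul_inv_cancel, map_one, mul_one, zero_mul] using this
  · have hz : g * g'⁻¹ ≠ 1 := fun h => hg (mul_inv_eq_one.1 h).symm
    let := Fintype.ofFinite (F ⧸ Subgroup.zpowers (g * g'⁻¹))
    refine ⟨Finset.univ.image (Quotient.out : F ⧸ Subgroup.zpowers (g * g'⁻¹) → F), ?_,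
      fun x hx h0 => ?_⟩
    · have h1 := (Subgroup.one_lt_card_iff_ne_bot _).2 (Subgroup.zpowers_ne_bot.2 hz)
      rw [Subgroup.card_eq_card_quotient_mul_card_subgroup (Subgroup.zpowers (g * g'⁻¹)), mul_comm]
      refine Nat.mul_le_mul (Finset.card_image_le.trans (le_of_eq ?_)) h1
      rw [Finset.card_univ, Nat.card_eq_fintype_card]
      rfl
    · let W : Subgroup F :=
        { carrier := {h | ∀ a, x.coeff (a * h) = x.coeff a}
          one_mem' := fun a => by rw [mul_one]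
          mul_mem' := fun {h k} hh hk a => by rw [← mul_assoc, hk, hh]
          inv_mem' := fun {h} hh a => by rw [← hh, inv_mul_cancel_right] }
      have hW : Subgroup.zpowers (g * g'⁻¹) ≤ W := by
        refine Subgroup.zpowers_le.2 fun a => ?_
        rw [mul_sub, sub_eq_zero] at hx
        have := congrArg (fun y => y.coeff (a * g)) hx
        simpa [mul_assoc] using this
      ext a
      obtain ⟨h, hh⟩ := QuotientGroup.mk_out_eq_mul (Subgroup.zpowers (g * g'⁻¹)) a
      rw [← hW h.2 a, ← hh]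
      exact h0 _ (Finset.mem_image_of_mem _ (Finset.mem_univ _))

theorem rank_le {F S : Type} [Group F] [Finite F] [Fintype S] [DecidableEq S] {u : ℕ}
    (μ : Fin u → S → ZMod 2) (α β : S → Fin u → MonoidAlgebra (ZMod 2) F)
    (d : S → MonoidAlgebra (ZMod 2) F) (s : S → F)
    (hd : ∀ i, d i = 0 ∨ ∃ g', g' ≠ s i ∧ d i = of _ _ g')
    (h : ∀ i t, ∑ j, μ j t • β i j - (∑ j, μ j t • α i j) * of (ZMod 2) F (s t) =
      if t = i then d i - of (ZMod 2) F (s i) else 0) : Fintype.card S ≤ 4 * u := by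
  classical
  choose T hT1 hT2 using fun i => half_kernel (d i) (s i) (hd i)
  have hM : Nat.card (MonoidAlgebra (ZMod 2) F) = 2 ^ Nat.card F := by
    rw [Nat.card_congr (coeffEquiv.trans Finsupp.equivFunOnFinite), Nat.card_fun, Nat.card_zmod]
  have : Finite (MonoidAlgebra (ZMod 2) F) :=
    Finite.of_equiv _ (coeffEquiv.trans Finsupp.equivFunOnFinite).symm
  let Φ : (S → MonoidAlgebra (ZMod 2) F) → ((Fin u → MonoidAlgebra (ZMod 2) F) ×
      (Fin u → MonoidAlgebra (ZMod 2) F)) × ((t : S) → T t → ZMod 2) := fun x =>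
    ((fun j => ∑ i, x i * β i j, fun j => ∑ i, x i * α i j), fun t a => (x t).coeff a)
  have hΦ : Function.Injective Φ := by
    intro x y hxy
    obtain ⟨h12, h3⟩ := Prod.mk.inj hxy
    obtain ⟨h1, h2⟩ := Prod.mk.inj h12
    funext t
    refine sub_eq_zero.1 (hT2 t _ ?_ fun a ha => ?_)
    · have e : ∀ z : S → MonoidAlgebra (ZMod 2) F, z t * (d t - of (ZMod 2) F (s t)) =
          ∑ j, μ j t • ∑ i, z i * β i j -
            (∑ j, μ j t • ∑ i, z i * α i j) * of (ZMod 2) F (s t) := by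
        intro z
        have e1 : ∀ γ : S → Fin u → MonoidAlgebra (ZMod 2) F, ∑ j, μ j t • ∑ i, z i * γ i j =
            ∑ i, z i * ∑ j, μ j t • γ i j := by
          intro γ
          simp only [Finset.smul_sum, Finset.mul_sum, mul_smul_comm]
          exact Finset.sum_comm
        rw [e1, e1, Finset.sum_mul, ← Finset.sum_sub_distrib]
        simp only [mul_assoc, ← mul_sub, h, mul_ite, mul_zero, Finset.sum_ite_eq,
          Finset.mem_univ, if_true]
      rw [sub_mul, e, e, sub_eq_zero]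
      simp only [fun j => congrFun h1 j, fun j => congrFun h2 j]
    · have := congrFun (congrFun h3 t) ⟨a, ha⟩
      rw [coeff_sub, Finsupp.sub_apply, sub_eq_zero]
      exact this
  have h1 := Nat.card_le_card_of_injective Φ hΦ
  simp only [Nat.card_prod, Nat.card_pi, hM, Nat.card_zmod, Finset.prod_const, Finset.card_univ,
    Fintype.card_fin, Fintype.card_coe, Finset.prod_pow_eq_pow_sum, ← pow_mul, ← pow_add] at h1
  have h2 := (Nat.pow_le_pow_iff_right (by norm_num)).1 h1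
  have h3 : ∑ t, 2 * (T t).card ≤ ∑ _t : S, Nat.card F := Finset.sum_le_sum fun t _ => hT1 t
  rw [← Finset.mul_sum, Finset.sum_const, Finset.card_univ, smul_eq_mul] at h3
  have h4 : 0 < Nat.card F := Nat.card_pos
  refine Nat.le_of_mul_le_mul_left (c := Nat.card F) ?_ h4
  nlinarith

namespace Config

variable {S K V : Type} [Fintype S] [DecidableEq S] [Fintype K] (Ω : Config S K V)

/-- The graph with the special edges deleted. -/
def cut : LGraph S V Unit :=
  Ω.graph (fun x c => ¬ (c = Ω.c0 ∧ ∃ j, x = Ω.sp j ∨ Ω.mv x c = Ω.sp j)) (fun _ _ => 1)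
    (fun x c h ⟨h1, j, h2⟩ => h ⟨h1, j, by rw [Ω.mv_mv] at h2; exact h2.symm⟩) (fun _ _ => rfl)

theorem not_rf [Fintype V] : ¬ Group.ResiduallyFinite (FreeGroup S ⧸ Ω.cut.N) := by
  classical
  intro hrf
  have h1 : ∀ i, ∃ H : FiniteIndexNormalSubgroup (FreeGroup S ⧸ Ω.cut.N),
      (∃ w k, Ω.cut.Rel (Ω.sp i) w (Ω.mv (Ω.sp i) Ω.c0) k) →
      ∃ w k, Ω.cut.Rel (Ω.sp i) w (Ω.mv (Ω.sp i) Ω.c0) k ∧
        QuotientGroup.mk' H.toSubgroup (Ω.cut.π w) ≠
          QuotientGroup.mk' H.toSubgroup (Ω.cut.π (FreeGroup.of i)) := by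
    intro i
    by_cases h : ∃ w k, Ω.cut.Rel (Ω.sp i) w (Ω.mv (Ω.sp i) Ω.c0) k
    · obtain ⟨w, k, h⟩ := h
      have hne := Ω.cut.no_shortcut (t := FreeGroup.of i) (by rw [fd_one, FreeGroup.toWord_of]; simp)
        (fun k hk => by
          unfold LGraph.Rel at hk
          rw [FreeGroup.toWord_of] at hk
          obtain ⟨v₁, k₁, k₂, ⟨c, h1, -, h2, -⟩, -⟩ := hk.cons_inv
          have h3 := Ω.lab_inj _ _ _ ((Ω.sp_lab i).trans (congrArg Prod.fst h2))
          exact h1 ⟨h3.symm, i, Or.inl rfl⟩) h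
      obtain ⟨H, hH⟩ := Group.exists_finiteIndexNormalSubgroup_of_residuallyFinite _ _ hne
      exact ⟨H, fun _ => ⟨w, k, h, hH⟩⟩
    · exact ⟨.ofSubgroup ⊤, fun h' => absurd h' h⟩
  choose H hH using h1
  let F := (i : S) → (FreeGroup S ⧸ Ω.cut.N) ⧸ (H i).toSubgroup
  let ρ : FreeGroup S × Unit →* F :=
    ((MonoidHom.pi fun i => QuotientGroup.mk' (H i).toSubgroup).comp Ω.cut.π).comp
      (MonoidHom.fst _ _)
  have hρ : ∀ v w k, Ω.cut.Rel v w v k → ρ (w, k) = 1 := by
    intro v w k h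
    have := Ω.cut.π_eq_one.2 (Ω.cut.mem_N_of_loop h)
    simp only [ρ, MonoidHom.comp_apply, MonoidHom.coe_fst, this, map_one]
  choose α β d h1 h2 h3 using Ω.factor _ _ ρ hρ (by
    intro x c hx
    by_cases h : c = Ω.c0 ∧ ∃ j, x = Ω.sp j ∨ Ω.mv x c = Ω.sp j
    · obtain ⟨h1, j, h2 | h2⟩ := h
      · exact Or.inl ⟨j, h2, h1⟩
      · have := Ω.side_mv x c
        rw [h2, Ω.sp_side, hx] at this
        exact absurd this (by simp)
    · exact Or.inr ⟨h, rfl⟩)
  refine absurd (rank_le Ω.μ α β d (fun t => ρ (FreeGroup.of t, 1)) (fun i => ?_) h3)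
    (not_le.2 Ω.small)
  by_cases h : ∃ w k, Ω.cut.Rel (Ω.sp i) w (Ω.mv (Ω.sp i) Ω.c0) k
  · obtain ⟨w, k, h4, h5⟩ := hH i h
    exact Or.inr ⟨_, fun h6 => h5 (congrFun h6 i), h1 i w k h4⟩
  · exact Or.inl (h2 i h)

end Config

end Vale.Agent.P186
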