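import Vale.Agent.P186.Area

/-! Consequences of the Dehn property: torsion-freeness and no short cuts. -/

namespace Vale.Agent.P186

open FreeGroup hiding map_mul map_one map_inv

theorem TreeMetric.line {T : Type*} {d : T → T → ℕ} (h : TreeMetric d) {x y z z' : T}
    (hz : Btw d x z y) (hz' : Btw d x z' y) (hle : d x z ≤ d x z') : d x z + d z z' = d x z' := by
  rcases h.thin x y z' z hz with h1 | h1
  · exact h1
  · unfold Btw at *
    have := h.symm z z'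
    omega

namespace LGraph

variable {S V C : Type*} [CommGroup C] [DecidableEq S] (Γ : LGraph S V C)

theorem mem_N_of_loop {v : V} {w : FreeGroup S} {k : C} (h : Γ.Rel v w v k) : w ∈ Γ.N :=
  ⟨(w, k), Γ.loop_mem h, rfl⟩

theorem mem_N_of_fix {c : Γ.Cell} {w : FreeGroup S} (h : ((w, 1) : FreeGroup S × C) • c = c) :
    w ∈ Γ.N := by
  obtain ⟨x, v, rfl⟩ := Γ.cell_surj c
  rw [smul_cell] at h
  obtain ⟨k, hk⟩ := Γ.cell_eq.1 h.symm
  have := Γ.N_normal.conj_mem _ (Γ.mem_N_of_loop hk) x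
  simpa [mul_assoc] using this

theorem torsionFree (x : FreeGroup S ⧸ Γ.N) (hx : IsOfFinOrder x) : x = 1 := by
  classical
  by_contra hx1
  have hex : ∃ m, ∃ w : FreeGroup S, IsConj x (Γ.π w) ∧ fd 1 w = m := by
    obtain ⟨w, rfl⟩ := QuotientGroup.mk'_surjective Γ.N x
    exact ⟨_, w, IsConj.refl _, rfl⟩
  obtain ⟨w0, hw0, hm0⟩ := Nat.find_spec hex
  have hmin : ∀ w : FreeGroup S, IsConj x (Γ.π w) → Nat.find hex ≤ fd 1 w :=
    fun w hw => Nat.find_min' hex ⟨w, hw, rfl⟩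
  set L := reduceCyclically w0.toWord with hL
  have hcyc : IsCyclicallyReduced L := reduceCyclically.isCyclicallyReduced isReduced_toWord
  have hconj := reduceCyclically.conj_conjugator_reduceCyclically w0.toWord
  set w := FreeGroup.mk L with hw
  have hwc : IsConj x (Γ.π w) := by
    refine hw0.trans (isConj_iff.2 ⟨(Γ.π (FreeGroup.mk (reduceCyclically.conjugator
      w0.toWord)))⁻¹, ?_⟩)
    have : w0 = FreeGroup.mk (reduceCyclically.conjugator w0.toWord) * w *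
        (FreeGroup.mk (reduceCyclically.conjugator w0.toWord))⁻¹ := by
      rw [hw, inv_mk, mul_mk, mul_mk, hL, hconj, mk_toWord]
    have h2 := congrArg Γ.π this
    simp only [map_mul, map_inv] at h2
    rw [h2]
    group
  have hlen : L.length ≤ Nat.find hex := by
    have := congrArg List.length hconj
    rw [← hm0, fd_one, ← this]
    simp only [List.length_append, ← hL]
    omega
  have hpow : ∀ k : ℕ, fd 1 (w ^ k) = k * L.length := by
    intro k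
    rw [fd_one, hw, pow_mk, toWord_mk_red (hcyc.flatten_replicate k).isReduced]
    simp
  have hw1 : w ∉ Γ.N := by
    intro h
    rw [Γ.π_eq_one.2 h] at hwc
    exact hx1 (isConj_one_left.1 hwc)
  have hL0 : 0 < L.length := by
    rcases Nat.eq_zero_or_pos L.length with h | h
    · exfalso
      apply hw1
      rw [hw, List.length_eq_zero_iff.1 h, ← one_eq_mk]
      exact one_mem _
    · exact h
  obtain ⟨n, hn0, hn⟩ := isOfFinOrder_iff_pow_eq_one.1 hx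
  have hwn : w ^ n ∈ Γ.N := by
    obtain ⟨u, hu⟩ := isConj_iff.1 hwc
    rw [← Γ.π_eq_one, map_pow, ← hu, conj_pow, hn]
    simp
  have hne : w ^ n ≠ 1 := by
    intro h
    have := hpow n
    rw [h, fd_tree.self] at this
    have := Nat.mul_pos hn0 hL0
    omega
  obtain ⟨c, p, p', h, hp, hp', hh, e1, e2, e3⟩ := Γ.shortN hwn hne
  have d1 : fd 1 w = L.length := by simpa using hpow 1
  have dy : fd (w ^ n) (w ^ (n + 1)) = L.length := by
    have := fd_mul (w ^ n) 1 w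
    rw [mul_one, ← pow_succ] at this
    rw [this, d1]
  have hn1 : fd 1 (w ^ (n + 1)) = fd 1 (w ^ n) + L.length := by rw [hpow, hpow]; ring
  have inl : ∀ z, Btw fd 1 z (w ^ n) → Btw fd 1 z (w ^ (n + 1)) ∧
      Btw fd 1 (w * z) (w ^ (n + 1)) ∧ fd 1 (w * z) = L.length + fd 1 z := by
    intro z hz
    have a1 := fd_mul w 1 z
    have a2 := fd_mul w z (w ^ n)
    rw [mul_one] at a1
    rw [← pow_succ'] at a2
    have t1 := fd_tri z (w ^ n) (w ^ (n + 1))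
    have t2 := fd_tri 1 z (w ^ (n + 1))
    have t3 := fd_tri 1 w (w * z)
    have t4 := fd_tri 1 (w * z) (w ^ (n + 1))
    unfold Btw at *
    omega
  have seg : ∀ t ≤ fd p p', ∃ q, q ∈ Γ.A c ∧ fd p q = t ∧ fd q p' + t = fd p p' ∧
      Btw fd 1 q (w ^ n) ∧ fd 1 q = fd 1 p + t := by
    intro t ht
    obtain ⟨q, hq1, hq⟩ := fd_tree.geod p p' t ht
    have t1 := fd_tri 1 p q
    have t2 := fd_tri q p' (w ^ n)
    have t3 := fd_tri 1 q (w ^ n)
    refine ⟨q, Γ.mill.conv c p hp p' hp' q hq, hq1, ?_, ?_, ?_⟩ <;> unfold Btw at * <;> omega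
  obtain ⟨p0, -, hp0, -, hpl, -⟩ := seg 0 (Nat.zero_le _)
  obtain rfl := fd_tree.eq_of _ _ hp0
  obtain ⟨p1, -, -, hp1, hpl', hd'⟩ := seg _ le_rfl
  obtain rfl := fd_tree.eq_of p1 p' (by omega)
  obtain ⟨b1, b2, b3⟩ := inl p hpl
  obtain ⟨b1', -, -⟩ := inl p1 hpl'
  have hbig := Γ.big
  by_cases hA : L.length + Γ.r + 1 ≤ fd p p1
  · obtain ⟨q, hq, q1, q2, q3, q4⟩ := seg (Γ.r + 1) (by omega)
    obtain ⟨c1, c2, c3⟩ := inl q q3
    have l1 := fd_tree.line b1 b2 (by omega)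
    have l2 := fd_tree.line b2 b1' (by omega)
    have l3 := fd_tree.line b1 c2 (by omega)
    have l4 := fd_tree.line c2 b1' (by omega)
    have m1 : w * p ∈ Γ.A c := Γ.mill.conv c p hp p1 hp' _ (by
      show fd _ _ + fd _ _ = fd _ _; omega)
    have m2 : w * q ∈ Γ.A c := Γ.mill.conv c p hp p1 hp' _ (by
      show fd _ _ + fd _ _ = fd _ _; omega)
    by_cases hcc : ((w, 1) : FreeGroup S × C) • c = c
    · exact hw1 (Γ.mem_N_of_fix hcc)
    · have := Γ.mill.ovl _ _ hcc (w * p) (w * q) (Γ.mill.A_eq (w, 1) c p hp) m1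
        (Γ.mill.A_eq (w, 1) c q hq) m2
      have e : fd (w * p) (w * q) ≤ Γ.r := this
      rw [fd_mul] at e
      omega
  · obtain ⟨q, hq, q1, q2, q3, q4⟩ := seg (min (fd p p1) L.length) (by omega)
    obtain ⟨c1, -, -⟩ := inl q q3
    have l1 := fd_tree.line c1 b2 (by omega)
    have h1 : Γ.π h.1 = 1 := Γ.π_eq_one.2 (Γ.mem_N_of_H hh)
    have := hmin (p⁻¹ * (h.1 * (w * p))) (hwc.trans (isConj_iff.2 ⟨(Γ.π p)⁻¹, by
      simp only [map_mul, map_inv, h1]; group⟩))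
    have a1 := fd_mul p 1 (p⁻¹ * (h.1 * (w * p)))
    rw [mul_one, mul_inv_cancel_left] at a1
    have t1 := fd_tri p (h.1 * q) (h.1 * (w * p))
    have t2 := fd_tri p (h.1 * p1) (h.1 * q)
    rw [fd_mul] at t1 t2
    rw [fd_symm p1 q] at t2
    omega

theorem no_shortcut {u u' : V} {t : FreeGroup S} (ht : fd 1 t ≤ 1)
    (hlong : ∀ k, ¬ Γ.Rel u t u' k) {γ : FreeGroup S} {k : C} (hγ : Γ.Rel u γ u' k) :
    Γ.π γ ≠ Γ.π t := by
  classical
  intro hπ
  have hex : ∃ m, ∃ γ : FreeGroup S, (∃ k, Γ.Rel u γ u' k) ∧ Γ.π γ = Γ.π t ∧ fd 1 γ = m :=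
    ⟨_, γ, ⟨k, hγ⟩, hπ, rfl⟩
  obtain ⟨γ0, ⟨k0, h0⟩, hπ0, hm0⟩ := Nat.find_spec hex
  have hmin : ∀ γ : FreeGroup S, (∃ k, Γ.Rel u γ u' k) → Γ.π γ = Γ.π t →
      Nat.find hex ≤ fd 1 γ := fun γ h1 h2 => Nat.find_min' hex ⟨γ, h1, h2, rfl⟩
  have hn : γ0 * t⁻¹ ∈ Γ.N := by rw [← Γ.π_eq_one, map_mul, map_inv, hπ0, mul_inv_cancel]
  have hne : γ0 * t⁻¹ ≠ 1 := by
    intro h
    rw [mul_inv_eq_one.1 h] at h0
    exact hlong _ h0
  obtain ⟨c, p, p', h, hp, hp', hh, e1, e2, e3⟩ := Γ.shortN hn hne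
  have hd : fd γ0 (γ0 * t⁻¹) ≤ 1 := by
    have a1 := fd_mul γ0 1 t⁻¹
    have a2 := fd_mul t 1 t⁻¹
    rw [mul_one] at a1 a2
    rw [mul_inv_cancel, fd_symm] at a2
    omega
  have inl : ∀ z, Btw fd 1 z (γ0 * t⁻¹) → 0 < fd z (γ0 * t⁻¹) → Btw fd 1 z γ0 := by
    intro z hz h1
    rcases fd_tree.thin _ _ γ0 z hz with h2 | h2
    · exact h2
    · rcases fd_tree.btw_le_one h2 hd with rfl | rfl
      · unfold Btw; rw [fd_tree.self z]; omega
      · rw [fd_tree.self] at h1; omega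
  have hbig := Γ.big
  obtain ⟨q, hq1, hq⟩ := fd_tree.geod p p' (fd p p' - 1) (by omega)
  have hqA := Γ.mill.conv c p hp p' hp' q hq
  have t1 := fd_tri 1 p q
  have t2 := fd_tri q p' (γ0 * t⁻¹)
  have t3 := fd_tri 1 q (γ0 * t⁻¹)
  have t4 := fd_tri p p' (γ0 * t⁻¹)
  have t5 := fd_tri 1 p (γ0 * t⁻¹)
  have b1 : Btw fd 1 p γ0 := inl p (by unfold Btw at *; omega) (by unfold Btw at *; omega)
  have b2 : Btw fd 1 q γ0 := inl q (by unfold Btw at *; omega) (by unfold Btw at *; omega)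
  have hc0 : Γ.cell γ0 u' = Γ.cell 1 u := (Γ.cell_eq.2 ⟨k0, by simpa using h0⟩).symm
  have m0 : (1 : FreeGroup S) ∈ Γ.A (Γ.cell 1 u) := ⟨u, rfl⟩
  have m1 : γ0 ∈ Γ.A (Γ.cell 1 u) := ⟨u', hc0⟩
  have hcc : c = Γ.cell 1 u := by
    by_contra hcc
    have : fd p q ≤ Γ.r := Γ.mill.ovl _ _ hcc p q hp (Γ.mill.conv _ _ m0 _ m1 p b1) hqA
      (Γ.mill.conv _ _ m0 _ m1 q b2)
    omega
  subst hcc
  have h1 : Γ.π h.1 = 1 := Γ.π_eq_one.2 (Γ.mem_N_of_H hh)
  have h2 := hmin (h.1 * γ0) ⟨_, ((hh 1 u rfl).trans h0).cast (by group) rfl⟩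
    (by rw [map_mul, h1, one_mul, hπ0])
  have s1 := fd_tri 1 p (h.1 * γ0)
  have s2 := fd_tri p (h.1 * q) (h.1 * γ0)
  have s3 := fd_tri p (h.1 * p') (h.1 * q)
  rw [fd_mul] at s2 s3
  rw [fd_symm p' q] at s3
  unfold Btw at *
  omega

end LGraph

end Vale.Agent.P186
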