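import Mathlib

/-! Tree-like metrics with values in the naturals, convex sets and gates. -/

namespace Vale.Agent.P186

variable {T : Type*}

/-- `z` lies between `x` and `y`. -/
def Btw (d : T → T → ℕ) (x z y : T) : Prop := d x z + d z y = d x y

/-- Axioms of the path metric of a simplicial tree that are used below. -/
structure TreeMetric (d : T → T → ℕ) : Prop where
  self : ∀ x, d x x = 0
  eq_of : ∀ x y, d x y = 0 → x = y
  symm : ∀ x y, d x y = d y x
  tri : ∀ x y z, d x z ≤ d x y + d y z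
  med : ∀ x y z, ∃ m, Btw d x m y ∧ Btw d y m z ∧ Btw d x m z
  thin : ∀ x y z p, Btw d x p y → Btw d x p z ∨ Btw d z p y
  geod : ∀ x y i, i ≤ d x y → ∃ z, d x z = i ∧ Btw d x z y

/-- Convex sets. -/
def Conv (d : T → T → ℕ) (A : Set T) : Prop := ∀ x ∈ A, ∀ y ∈ A, ∀ z, Btw d x z y → z ∈ A

/-- `a` is the gate of `y` in `A`. -/
def Gate (d : T → T → ℕ) (A : Set T) (y a : T) : Prop := a ∈ A ∧ ∀ t ∈ A, Btw d y a t

variable {d : T → T → ℕ}

theorem TreeMetric.btw_symm (h : TreeMetric d) {x z y : T} (hb : Btw d x z y) : Btw d y z x := by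
  unfold Btw at *
  rw [h.symm y z, h.symm z x, h.symm y x]; omega

theorem TreeMetric.btw_le_one (h : TreeMetric d) {x z y : T} (hb : Btw d x z y) (h1 : d x y ≤ 1) :
    z = x ∨ z = y := by
  unfold Btw at hb
  by_cases hx : d x z = 0
  · exact Or.inl (h.eq_of _ _ hx).symm
  · exact Or.inr (h.eq_of _ _ (by omega))

theorem TreeMetric.conv_union (h : TreeMetric d) {W : Set T} (hW : Conv d W) {ι : Type*}
    (B : ι → Set T) (P : ι → Prop) (hB : ∀ i, P i → Conv d (B i))
    (hne : ∀ i, P i → ∃ x ∈ B i, x ∈ W) : Conv d {x | x ∈ W ∨ ∃ i, P i ∧ x ∈ B i} := by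
  have key : ∀ x, (x ∈ W ∨ ∃ i, P i ∧ x ∈ B i) → ∃ a ∈ W, ∀ z, Btw d x z a →
      (z ∈ W ∨ ∃ i, P i ∧ z ∈ B i) := by
    rintro x (hx | ⟨i, hi, hx⟩)
    · exact ⟨x, hx, fun z hz => Or.inl (hW x hx x hx z hz)⟩
    · obtain ⟨a, ha, haW⟩ := hne i hi
      exact ⟨a, haW, fun z hz => Or.inr ⟨i, hi, hB i hi x hx a ha z hz⟩⟩
  intro x hx y hy z hz
  obtain ⟨a, ha, hxa⟩ := key x hx
  obtain ⟨b, hb, hyb⟩ := key y hy
  rcases h.thin x y a z hz with h1 | h1
  · exact hxa z h1
  · rcases h.thin a y b z h1 with h2 | h2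
    · exact Or.inl (hW a ha b hb z h2)
    · exact hyb z (h.btw_symm h2)

theorem TreeMetric.conv_nbhd (h : TreeMetric d) {W : Set T} (hW : Conv d W) :
    Conv d {x | ∃ w ∈ W, d x w ≤ 1} := by
  rintro x ⟨a, ha, hxa⟩ y ⟨b, hb, hyb⟩ z hz
  rcases h.thin x y a z hz with h1 | h1
  · rcases h.btw_le_one h1 hxa with rfl | rfl
    · exact ⟨a, ha, hxa⟩
    · exact ⟨z, ha, by rw [h.self]; omega⟩
  · rcases h.thin a y b z h1 with h2 | h2
    · exact ⟨z, hW a ha b hb z h2, by rw [h.self]; omega⟩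
    · rcases h.btw_le_one (h.btw_symm h2) hyb with rfl | rfl
      · exact ⟨b, hb, hyb⟩
      · exact ⟨z, hb, by rw [h.self]; omega⟩

theorem TreeMetric.interior_mem (h : TreeMetric d) {W : Set T} (hW : Conv d W) {x y z a b : T}
    (ha : a ∈ W) (hb : b ∈ W) (hxa : d x a ≤ 1) (hyb : d y b ≤ 1) (hz : Btw d x z y)
    (hzx : z ≠ x) (hzy : z ≠ y) : z ∈ W := by
  rcases h.thin x y a z hz with h1 | h1
  · rcases h.btw_le_one h1 hxa with rfl | rfl
    · exact absurd rfl hzx
    · exact ha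
  · rcases h.thin a y b z h1 with h2 | h2
    · exact hW a ha b hb z h2
    · rcases h.btw_le_one (h.btw_symm h2) hyb with rfl | rfl
      · exact absurd rfl hzy
      · exact hb

theorem TreeMetric.exists_gate (h : TreeMetric d) {A : Set T} (hA : Conv d A) (hne : A.Nonempty)
    (y : T) : ∃ a, Gate d A y a := by
  obtain ⟨a, ha, hmin⟩ := (measure (fun t => d y t)).wf.has_min A hne
  refine ⟨a, ha, fun t ht => ?_⟩
  obtain ⟨m, h1, h2, h3⟩ := h.med y a t
  have hm : m ∈ A := hA a ha t ht m h2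
  have hle : ¬ d y m < d y a := hmin m hm
  have : d m a = 0 := by unfold Btw at h1; omega
  have hma := h.eq_of _ _ this
  subst hma
  exact h3

theorem TreeMetric.gate_chain (h : TreeMetric d) {A : Set T} {x y p p' : T}
    (hp : Gate d A x p) (hp' : Gate d A y p') (hne : p ≠ p') :
    d x p + d p p' + d p' y = d x y := by
  have h1 : Btw d x p p' := hp.2 p' hp'.1
  have h2 : Btw d y p' p := hp'.2 p hp.1
  rcases h.thin x p' y p h1 with h3 | h3
  · unfold Btw at *
    rw [h.symm y p', h.symm p' p, h.symm y p] at h2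
    omega
  · exfalso
    unfold Btw at *
    rw [h.symm p' p] at h2
    exact hne (h.eq_of _ _ (by omega))

end Vale.Agent.P186
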